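import Vale.Agent.P030.H782.Ser

/-!
# P030, NV: the 17 groups are flat functionals

`Fl c Φ Ψ` : the 8-tuple `Φ + log t · Ψ + ..` is a solution of the connection of the list in the
local parameter of the cusp `c` (basis `1, l, L, Li2, f6, f7, (1-u)F, (1-u)θF`).
-/

open PowerSeries

namespace Vale.Agent.P030.H782

open Vale.Agent.P030.T

set_option linter.unusedSimpArgs false
set_option linter.unusedTactic false
set_option linter.unreachableTactic false

/-- flatness at `c0` -/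
structure Fl0 (Φ Ψ : Fin 8 → ℚ⟦X⟧) : Prop where
  e0 : th (Φ 0) + Ψ 0 = 0
  e1 : th (Φ 1) + Ψ 1 = 0
  e2 : (1 - X) * (th (Φ 2) + Ψ 2) = X * Φ 0
  e3 : th (Φ 3) + Ψ 3 = Φ 2
  e4 : (1 - X ^ 2) * (th (Φ 4) + Ψ 4) = C (1 / 2) * (X * (1 + X)) * Φ 1
    + X * (1 - X) * (Φ 2 + Φ 1)
  e5 : (1 - X) * (th (Φ 5) + Ψ 5) = X * (C (1 / 2) * Φ 1 + Φ 2)
  e6 : (1 - X) * (th (Φ 6) + Ψ 6) = -X * Φ 6 + (1 - X) * Φ 7
  e7 : (1 - X ^ 2) * (th (Φ 7) + Ψ 7) = -X * (1 - X) * Φ 7 + X ^ 2 * Φ 6 - C (1 / 4) * X * Φ 0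

/-- flatness at `c1` -/
structure Fl1 (Φ Ψ : Fin 8 → ℚ⟦X⟧) : Prop where
  e0 : th (Φ 0) + Ψ 0 = 0
  e1 : th (Φ 1) + Ψ 1 = 0
  e2 : (1 - X) * (th (Φ 2) + Ψ 2) = -X * Φ 0
  e3 : (1 - X ^ 2) * (th (Φ 3) + Ψ 3) = 2 * X * Φ 2
  e4 : (1 - X) * (th (Φ 4) + Ψ 4) = -C (1 / 2) * X * Φ 1 + (Φ 2 + Φ 1)
  e5 : (1 - X) * (th (Φ 5) + Ψ 5) = -X * (C (1 / 2) * Φ 1 + Φ 2)
  e6 : (1 - X ^ 2) * (th (Φ 6) + Ψ 6) = X * (1 + X) * Φ 6 + 2 * X * Φ 7
  e7 : (1 - X) * (th (Φ 7) + Ψ 7) = -Φ 7 - C (1 / 2) * (1 + X) * Φ 6 - C (1 / 8) * (1 - X) * Φ 0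

/-- flatness at `c3` -/
structure Fl3 (Φ Ψ : Fin 8 → ℚ⟦X⟧) : Prop where
  e0 : th (Φ 0) + Ψ 0 = 0
  e1 : th (Φ 1) + Ψ 1 = 0
  e2 : (1 - X) * (th (Φ 2) + Ψ 2) = -Φ 0
  e3 : (1 - X ^ 2) * (th (Φ 3) + Ψ 3) = 2 * X * Φ 2
  e4 : (1 - X) * (th (Φ 4) + Ψ 4) = -C (1 / 2) * Φ 1 + X * (Φ 2 + Φ 1)
  e5 : (1 - X) * (th (Φ 5) + Ψ 5) = -(C (1 / 2) * Φ 1 + Φ 2)
  e6 : (1 - X ^ 2) * (th (Φ 6) + Ψ 6) = (1 + X) * Φ 6 + 2 * X * Φ 7
  e7 : (1 - X) * (th (Φ 7) + Ψ 7) = -X * Φ 7 - C (1 / 2) * (1 + X) * Φ 6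
    + C (1 / 8) * (1 - X) * Φ 0

/-- flatness at `c2` -/
structure Fl2 (Φ Ψ : Fin 8 → ℚ⟦X⟧) : Prop where
  e0 : th (Φ 0) + Ψ 0 = 0
  e1 : th (Φ 1) + Ψ 1 = 0
  e2 : (1 - X) * (th (Φ 2) + Ψ 2) = Φ 0
  e3 : th (Φ 3) + Ψ 3 = -Φ 2
  e4 : (1 - X ^ 2) * (th (Φ 4) + Ψ 4) = C (1 / 2) * (1 + X) * Φ 1 - (1 - X) * (Φ 2 + Φ 1)
  e5 : (1 - X) * (th (Φ 5) + Ψ 5) = C (1 / 2) * Φ 1 + Φ 2
  e6 : (1 - X) * (th (Φ 6) + Ψ 6) = -Φ 6 - (1 - X) * Φ 7
  e7 : (1 - X ^ 2) * (th (Φ 7) + Ψ 7) = (1 - X) * Φ 7 + Φ 6 - C (1 / 4) * X * Φ 0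

/-- the whole tuple of a group -/
noncomputable def tup (x : ℚ) (g : Gp) (j : Fin 8) : ℚ⟦X⟧ := tup0 g j + C x * tup1 g j

/-- the logarithmic partner of a group -/
noncomputable def par : Gp → Fin 8 → ℚ⟦X⟧
  | .x1 => fun j => 2 * tup0 .x2 j
  | .vb => tup0 .v2
  | _ => fun _ => 0

theorem half_eq : C (1 / 2) = (4 : ℚ⟦X⟧) * C (1 / 8) := by
  have : (4 : ℚ⟦X⟧) = C 4 := (map_ofNat C 4).symm
  rw [this, ← map_mul]; norm_num

theorem quart_eq : C (1 / 4) = (2 : ℚ⟦X⟧) * C (1 / 8) := by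
  have : (2 : ℚ⟦X⟧) = C 2 := (map_ofNat C 2).symm
  rw [this, ← map_mul]; norm_num

theorem eighth : (8 : ℚ⟦X⟧) * C (1 / 8) = 1 := by
  have : (8 : ℚ⟦X⟧) = C 8 := (map_ofNat C 8).symm
  rw [this, ← map_mul]; norm_num

/-- `2 X tw f = (1+X) ((1-X) θ f - X f)` -/
theorem X_tw (f : ℚ⟦X⟧) : X * tw f = C (1 / 2) * ((1 + X) * ((1 - X) * th f - X * f)) := by
  rw [tw, sc_eq, dd_mul, dd_sub, dd_one, dd_X, th_dd]
  ring

theorem X_ne : (X : ℚ⟦X⟧) ≠ 0 := PowerSeries.X_ne_zero

/-- the second equation of the K-system at `c1`, from the scalar one -/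
theorem tw_ode (f E : ℚ⟦X⟧) (h : (1 - X ^ 2) * th (th f) = X ^ 2 * (2 * th f + f) + X * E) :
    (1 - X) * th (tw f) = -tw f - C (1 / 2) * (1 + X) * f + C (1 / 2) * (1 - X) * E := by
  have h1 := X_tw f
  have h2 : th (X * tw f) = th (C (1 / 2) * ((1 + X) * ((1 - X) * th f - X * f))) := by rw [h1]
  simp only [th_mul, th_C, th_add, th_sub, th_one, th_X] at h2
  apply mul_left_cancel₀ X_ne
  linear_combination (1 - X) * h2 + (1 - X) * C (1 / 2) * h - (1 - X - 1) * h1 - h1 * 0 + 0 * eighth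


theorem K1 : (1 - X ^ 2) * th (th serK) = X ^ 2 * (2 * th serK + serK) + X * 0 := by
  linear_combination K_ode

theorem B21 : (1 - X ^ 2) * th (th serB2) = X ^ 2 * (2 * th serB2 + serB2)
    + X * (-C (1 / 4)) := by
  linear_combination B2_ode

theorem th_two : th (2 : ℚ⟦X⟧) = 0 := by
  rw [show (2 : ℚ⟦X⟧) = C 2 from (map_ofNat C 2).symm, th_C]

theorem th_four : th (4 : ℚ⟦X⟧) = 0 := by
  rw [show (4 : ℚ⟦X⟧) = C 4 from (map_ofNat C 4).symm, th_C]

theorem B1 : th (th serB) = X ^ 2 * (th (th serB) + 2 * th serB + serB)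
    - 2 * C (1 / 8) * (X * geo) := by
  have := B_ode
  rwa [quart_eq] at this

theorem tw2 (f : ℚ⟦X⟧) : X * tw f = 4 * C (1 / 8) * ((1 + X) * ((1 - X) * th f - X * f)) := by
  have := X_tw f
  rwa [half_eq] at this

theorem twB2 : (1 - X) * th (tw serB2) = -tw serB2 - 4 * C (1 / 8) * (1 + X) * serB2
    - C (1 / 8) * (1 - X) := by
  have := tw_ode serB2 _ B21
  rw [quart_eq, half_eq] at this
  linear_combination this - (1 - X) * C (1 / 8) * eighth

theorem twK : (1 - X) * th (tw serK) = -tw serK - 4 * C (1 / 8) * (1 + X) * serK := by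
  have := tw_ode serK _ K1
  rw [half_eq] at this
  linear_combination this

theorem M1 : (1 - X ^ 2) * th (th serM) = X ^ 2 * (2 * th serM + serM)
    + X * (-2 * dd serK + 2 * X * (th serK + serK)) := by
  linear_combination M_ode - 2 * th_dd serK

theorem twM : (1 - X) * th (tw serM) = -tw serM - 4 * C (1 / 8) * (1 + X) * serM
    + (1 - X) * (X * (th serK + serK) - dd serK) := by
  have := tw_ode serM _ M1
  rw [half_eq] at this
  linear_combination this + (1 - X) * (X * (th serK + serK) - dd serK) * eighth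

theorem fl_z1 (x : ℚ) : Fl0 (tup x .z1) (par .z1) := by
  constructor <;> simp only [tup, tup0, tup1, par, Matrix.cons_val, sc_eq,
    mul_zero, add_zero, th_zero, th_one, th_add, th_sub, th_neg, th_mul, th_C, th_X, zero_mul,
    zero_add, th_integ, th_two, th_four, map_ofNat, pow_two, th_li2, half_eq, quart_eq,
    sub_zero, neg_zero, mul_one, one_mul]
  · linear_combination lgm_geo
  · linear_combination X * (1 - X) * lgm * geoa_mul
  · linear_combination lgm * lgm_geo + ((1 - X) * lgm * th lgm) * eighth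
  · ring
  · linear_combination (1 - X) * B1 - C x * (1 - X) * K_ode - 2 * C (1 / 8) * X * geo_mul

theorem fl_zl (x : ℚ) : Fl0 (tup x .zl) (par .zl) := by
  constructor <;> simp only [tup, tup0, tup1, par, Matrix.cons_val, sc_eq,
    mul_zero, add_zero, th_zero, th_one, th_add, th_sub, th_neg, th_mul, th_C, th_X, zero_mul,
    zero_add, th_integ, th_two, th_four, map_ofNat, pow_two, th_li2, half_eq, quart_eq,
    sub_zero, neg_zero, mul_one, one_mul]
  · linear_combination (4 * C (1/8)) * (1 + X) * lgm_geo + (1 - X) * lgp_geo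
  · linear_combination (4 * C (1/8)) * lgm_geo

theorem fl_z8 (x : ℚ) : Fl0 (tup x .z8) (par .z8) := by
  constructor <;> simp only [tup, tup0, tup1, par, Matrix.cons_val, sc_eq,
    mul_zero, add_zero, th_zero, th_one, th_add, th_sub, th_neg, th_mul, th_C, th_X, zero_mul,
    zero_add, th_integ, th_two, th_four, map_ofNat, pow_two, th_li2, half_eq, quart_eq,
    sub_zero, neg_zero, mul_one, one_mul]
  · ring
  · linear_combination (1 - X) * K_ode

theorem fl_zab (x : ℚ) : Fl0 (tup x .zab) (par .zab) := by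
  constructor <;> simp only [tup, tup0, tup1, par, Matrix.cons_val, sc_eq,
    mul_zero, add_zero, th_zero, th_one, th_add, th_sub, th_neg, th_mul, th_C, th_X, zero_mul,
    zero_add, th_integ, th_two, th_four, map_ofNat, pow_two, th_li2, half_eq, quart_eq,
    sub_zero, neg_zero, mul_one, one_mul]
  all_goals try ring

theorem fl_w1 (x : ℚ) : Fl1 (tup x .w1) (par .w1) := by
  constructor <;> simp only [tup, tup0, tup1, par, Matrix.cons_val, sc_eq,
    mul_zero, add_zero, th_zero, th_one, th_add, th_sub, th_neg, th_mul, th_C, th_X, zero_mul,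
    zero_add, th_integ, th_two, th_four, map_ofNat, pow_two, th_li2, half_eq, quart_eq,
    sub_zero, neg_zero, mul_one, one_mul]
  · linear_combination -lgm_geo
  · linear_combination (-2) * X * lgm * geo2_mul
  · linear_combination -lgm * lgm_geo - ((1 - X) * lgm * th lgm) * eighth
  · linear_combination lgm * lgm_geo + ((1 - X) * lgm * th lgm) * eighth
  · linear_combination (-2) * tw2 serB2 - (1 + X) * ((1 - X) * th serB2 - X * serB2) * eighth
  · linear_combination twB2

theorem fl_wl (x : ℚ) : Fl1 (tup x .wl) (par .wl) := by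
  constructor <;> simp only [tup, tup0, tup1, par, Matrix.cons_val, sc_eq,
    mul_zero, add_zero, th_zero, th_one, th_add, th_sub, th_neg, th_mul, th_C, th_X, zero_mul,
    zero_add, th_integ, th_two, th_four, map_ofNat, pow_two, th_li2, half_eq, quart_eq,
    sub_zero, neg_zero, mul_one, one_mul]
  · linear_combination -(1 - X) * lgp_geo - (1 + X) * lgm_geo
  · linear_combination (-4) * C (1 / 8) * lgm_geo
  · linear_combination 4 * C (1 / 8) * lgm_geo + X * eighth

theorem fl_wy (x : ℚ) : Fl1 (tup x .wy) (par .wy) := by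
  constructor <;> simp only [tup, tup0, tup1, par, Matrix.cons_val, sc_eq,
    mul_zero, add_zero, th_zero, th_one, th_add, th_sub, th_neg, th_mul, th_C, th_X, zero_mul,
    zero_add, th_integ, th_two, th_four, map_ofNat, pow_two, th_li2, half_eq, quart_eq,
    sub_zero, neg_zero, mul_one, one_mul]
  · linear_combination 2 * tw2 serK + (1 + X) * ((1 - X) * th serK - X * serK) * eighth
  · linear_combination -twK

theorem fl_w8 (x : ℚ) : Fl1 (tup x .w8) (par .w8) := by
  constructor <;> simp only [tup, tup0, tup1, par, Matrix.cons_val, sc_eq,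
    mul_zero, add_zero, th_zero, th_one, th_add, th_sub, th_neg, th_mul, th_C, th_X, zero_mul,
    zero_add, th_integ, th_two, th_four, map_ofNat, pow_two, th_li2, half_eq, quart_eq,
    sub_zero, neg_zero, mul_one, one_mul]
  · linear_combination (-2) * tw2 serK - (1 + X) * ((1 - X) * th serK - X * serK) * eighth
  · linear_combination twK

theorem fl_wab (x : ℚ) : Fl1 (tup x .wab) (par .wab) := by
  constructor <;> simp only [tup, tup0, tup1, par, Matrix.cons_val, sc_eq,
    mul_zero, add_zero, th_zero, th_one, th_add, th_sub, th_neg, th_mul, th_C, th_X, zero_mul,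
    zero_add, th_integ, th_two, th_four, map_ofNat, pow_two, th_li2, half_eq, quart_eq,
    sub_zero, neg_zero, mul_one, one_mul]
  all_goals try ring

theorem fl_wf7 (x : ℚ) : Fl1 (tup x .wf7) (par .wf7) := by
  constructor <;> simp only [tup, tup0, tup1, par, Matrix.cons_val, sc_eq,
    mul_zero, add_zero, th_zero, th_one, th_add, th_sub, th_neg, th_mul, th_C, th_X, zero_mul,
    zero_add, th_integ, th_two, th_four, map_ofNat, pow_two, th_li2, half_eq, quart_eq,
    sub_zero, neg_zero, mul_one, one_mul]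
  all_goals try ring

theorem fl_v2 (x : ℚ) : Fl2 (tup x .v2) (par .v2) := by
  constructor <;> simp only [tup, tup0, tup1, par, Matrix.cons_val, sc_eq,
    mul_zero, add_zero, th_zero, th_one, th_add, th_sub, th_neg, th_mul, th_C, th_X, zero_mul,
    zero_add, th_integ, th_two, th_four, map_ofNat, pow_two, th_li2, half_eq, quart_eq,
    sub_zero, neg_zero, mul_one, one_mul]
  all_goals try ring

theorem fl_vl (x : ℚ) : Fl2 (tup x .vl) (par .vl) := by
  constructor <;> simp only [tup, tup0, tup1, par, Matrix.cons_val, sc_eq,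
    mul_zero, add_zero, th_zero, th_one, th_add, th_sub, th_neg, th_mul, th_C, th_X, zero_mul,
    zero_add, th_integ, th_two, th_four, map_ofNat, pow_two, th_li2, half_eq, quart_eq,
    sub_zero, neg_zero, mul_one, one_mul]
  all_goals try ring

theorem fl_v8 (x : ℚ) : Fl2 (tup x .v8) (par .v8) := by
  constructor <;> simp only [tup, tup0, tup1, par, Matrix.cons_val, dd_mul, dd_X] <;> simp only [tup, tup0, tup1, par, Matrix.cons_val, sc_eq,
    mul_zero, add_zero, th_zero, th_one, th_add, th_sub, th_neg, th_mul, th_C, th_X, zero_mul,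
    zero_add, th_integ, th_two, th_four, map_ofNat, pow_two, th_li2, half_eq, quart_eq,
    sub_zero, neg_zero, mul_one, one_mul]
  · rw [th_dd]; ring
  · have h1 : th serK = X * dd serK := th_dd _
    have h2 : th (th serK) = X * dd serK + X * th (dd serK) := by
      rw [h1, th_mul, th_X]
    have h3 := K_ode
    rw [h2, h1] at h3
    rw [h1]
    linear_combination (1 - X) * h3

theorem fl_vb (x : ℚ) : Fl2 (tup x .vb) (par .vb) := by
  constructor <;> simp only [tup, tup0, tup1, par, Matrix.cons_val, sc_eq,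
    mul_zero, add_zero, th_zero, th_one, th_add, th_sub, th_neg, th_mul, th_C, th_X, zero_mul,
    zero_add, th_integ, th_two, th_four, map_ofNat, pow_two, th_li2, half_eq, quart_eq,
    sub_zero, neg_zero, mul_one, one_mul]
  · linear_combination (1 - X) * lgp_geo
  · linear_combination lgm_geo

theorem fl_x2 (x : ℚ) : Fl3 (tup x .x2) (par .x2) := by
  constructor <;> simp only [tup, tup0, tup1, par, Matrix.cons_val, sc_eq,
    mul_zero, add_zero, th_zero, th_one, th_add, th_sub, th_neg, th_mul, th_C, th_X, zero_mul,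
    zero_add, th_integ, th_two, th_four, map_ofNat, pow_two, th_li2, half_eq, quart_eq,
    sub_zero, neg_zero, mul_one, one_mul]
  · linear_combination (-2) * X * C (1 / 8) * tw2 serK
      - X * C (1 / 8) * (1 + X) * ((1 - X) * th serK - X * serK) * eighth
  · linear_combination C (1 / 8) * X * twK

theorem fl_xl (x : ℚ) : Fl3 (tup x .xl) (par .xl) := by
  constructor <;> simp only [tup, tup0, tup1, par, Matrix.cons_val, sc_eq,
    mul_zero, add_zero, th_zero, th_one, th_add, th_sub, th_neg, th_mul, th_C, th_X, zero_mul,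
    zero_add, th_integ, th_two, th_four, map_ofNat, pow_two, th_li2, half_eq, quart_eq,
    sub_zero, neg_zero, mul_one, one_mul]
  · linear_combination 2 * X * tw2 serK
      + X * (1 + X) * ((1 - X) * th serK - X * serK) * eighth
  · linear_combination - X * twK

theorem fl_x1 (x : ℚ) : Fl3 (tup x .x1) (par .x1) := by
  constructor <;> simp only [tup, tup0, tup1, par, Matrix.cons_val, sc_eq,
    mul_zero, add_zero, th_zero, th_one, th_add, th_sub, th_neg, th_mul, th_C, th_X, zero_mul,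
    zero_add, th_integ, th_two, th_four, map_ofNat, pow_two, th_li2, half_eq, quart_eq,
    sub_zero, neg_zero, mul_one, one_mul]
  · linear_combination -(1 - X) * lgp_geo - (1 + X) * lgm_geo
  · linear_combination -lgm_geo
  · linear_combination lgm_geo + (1 - X) * eighth
  · linear_combination (-4) * C (1 / 8) * X * tw2 serM
      - 2 * C (1 / 8) * X * (1 + X) * ((1 - X) * (th serM + serK) - X * serM) * eighth
  · linear_combination 2 * C (1 / 8) * X * twM + 2 * C (1 / 8) * (1 - X) * tw2 serK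
      + 2 * C (1 / 8) * (1 - X) * ((1 - X ^ 2) * th serK - X ^ 2 * serK) * eighth
      + 2 * C (1 / 8) * (1 - X) * th_dd serK

end Vale.Agent.P030.H782
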