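import Vale.Agent.P030.T.Frame
import Vale.Agent.P030.H782.Flat

/-!
# P030, NV: the interface (G-argument)

* `NTt` : the connection on coefficient vectors, basis of the rows `1, l, L, Li2, f6, f7, (1-u)F,
  (1-u)θF`, derivation `u(u+1)(u-1) d/du`;
* `Sta` : the structure of the constant spaces of stable saturated submodules (helper200's Z2);
* `LamSt` : what is needed from Z2;
* `TableSt` : the finite table.
-/

open Polynomial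

namespace Vale.Agent.P030.H782

open Vale.Agent.P030.T

/-- connection on coefficient vectors (basis of the rows) -/
noncomputable def NTt (P : Fin 8 → ℚ[X]) : Fin 8 → ℚ[X] :=
  fun j => X * (X + 1) * (X - 1) * derivative (P j) + ![
    -(X * (X + 1)) * P 2 + C (1 / 4) * X * P 7,
    C (1 / 2) * X * (X - 3) * P 4 - C (1 / 2) * X * (X + 1) * P 5,
    (X ^ 2 - 1) * P 3 + X * (X - 1) * P 4 - X * (X + 1) * P 5,
    0, 0, 0,
    X * (X + 1) * P 6 - X ^ 2 * P 7,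
    (X ^ 2 - 1) * P 6 + (X - X ^ 2) * P 7] j

/-- structure of the constant space of a stable submodule (from Z2) -/
structure Sta (Λ : Submodule ℚ (Fin 8 → ℚ)) : Prop where
  ne : Λ ≠ ⊥
  /-- either `e_1 ∈ Λ` or `Λ` is the line of `c e_1 + e_l` -/
  one : (Pi.single 0 1 : Fin 8 → ℚ) ∈ Λ ∨
    ∃ c : ℚ, Λ = Submodule.span ℚ {(![c, 1, 0, 0, 0, 0, 0, 0] : Fin 8 → ℚ)}
  /-- `F, T` come together, with `e_1` -/
  ft : ∀ v ∈ Λ, (v 6 ≠ 0 ∨ v 7 ≠ 0) →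
    (Pi.single 6 1 : Fin 8 → ℚ) ∈ Λ ∧ (Pi.single 7 1 : Fin 8 → ℚ) ∈ Λ ∧
      (Pi.single 0 1 : Fin 8 → ℚ) ∈ Λ
  /-- residue at `0` -/
  r0 : ∀ v ∈ Λ, (![0, 0, v 3, 0, 0, 0, 0, 0] : Fin 8 → ℚ) ∈ Λ
  /-- residue at `-1` -/
  rm : ∀ v ∈ Λ, (![0, v 4, v 4, 0, 0, 0, 0, 0] : Fin 8 → ℚ) ∈ Λ
  /-- residue at `1` -/
  r1 : ∀ v ∈ Λ, (![v 2, (v 4 + v 5) / 2, v 5, 0, 0, 0, 0, 0] : Fin 8 → ℚ) ∈ Λ

/-- what is needed from Z2 -/
def LamSt : Prop := ∀ P : Fin 8 → ℚ[X], P ≠ 0 → ∃ Λ : Submodule ℚ (Fin 8 → ℚ), Sta Λ ∧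
  (∀ i n, (fun j => ((NTt^[i] P) j).coeff n) ∈ Λ) ∧
  LinearIndependent ℚ[X] (fun i : Fin (Module.finrank ℚ Λ) => NTt^[(i : ℕ)] P)

/-- the constant vector of a group -/
noncomputable def ini (x : ℚ) (g : Gp) (j : Fin 8) : ℚ := PowerSeries.constantCoeff (tup x g j)

/-- the finite table: for every stable `Λ` a set of groups, independent on `Λ` at every cusp, with
large total height -/
def TableSt (Pr : Par) : Prop := ∀ (x : ℚ) (Λ : Submodule ℚ (Fin 8 → ℚ)), Sta Λ →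
  ∃ J : Finset Gp,
    (∀ (c : Fin 4) (a : Gp → ℚ), (∀ g, a g ≠ 0 → g ∈ J ∧ g.cusp = c) →
      (∀ v ∈ Λ, ∑ g ∈ J, a g * ∑ j, ini x g j * v j = 0) → ∀ g, a g = 0) ∧
    Module.finrank ℚ Λ * Pr.D0 ≤ ∑ g ∈ J, Pr.ht g ∧ Module.finrank ℚ Λ ≤ J.card

end Vale.Agent.P030.H782
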