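import Vale.Agent.P030.H782.Ev

/-!
# P030, NV: the zero estimate from the classification of stable submodules and the finite table
-/

open Polynomial

namespace Vale.Agent.P030.H782

open Vale.Agent.P030.T

set_option linter.unusedSimpArgs false

theorem X_pow_dvd_th {N : ℕ} {f : PS} (h : tt ^ N ∣ f) : tt ^ N ∣ T.th f := by
  rw [PowerSeries.X_pow_dvd_iff] at h ⊢
  intro m hm
  rw [coeff_th, h m hm, mul_zero]

theorem dvd_of_unit_mul {N : ℕ} {a b : PS} (ha : PowerSeries.constantCoeff a ≠ 0)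
    (h : tt ^ N ∣ a * b) : tt ^ N ∣ b := by
  refine (PowerSeries.X_prime).pow_dvd_of_dvd_mul_left N ?_ h
  rwa [PowerSeries.X_dvd_iff]

/-- value of a tuple at the cusp `c` on a coefficient vector -/
noncomputable def val (d : ℕ) : Fin 4 → (Fin 8 → ℚ[X]) → (Fin 8 → PS) → PS
  | 0 => ev tt
  | 1 => ev (1 - 2 * geo)
  | 2 => ev2 d
  | 3 => ev (2 * geo - 1)

/-- flatness at the cusp `c` -/
def Fl : Fin 4 → (Fin 8 → PS) → (Fin 8 → PS) → Prop
  | 0 => Fl0
  | 1 => Fl1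
  | 2 => Fl2
  | 3 => Fl3

theorem val_NTt {d : ℕ} {Q : Fin 8 → ℚ[X]} (h : ∀ j, (Q j).natDegree ≤ d) {N : ℕ} :
    ∀ (c : Fin 4) (Φ Ψ : Fin 8 → PS), Fl c Φ Ψ → tt ^ N ∣ val d c Q Φ → tt ^ N ∣ val d c Q Ψ →
      tt ^ N ∣ val (d + 2) c (NTt Q) Φ
  | 0, Φ, Ψ, hf, h1, h2 => by
    simp only [val] at h1 h2 ⊢
    rw [ev_NTt0 hf]
    exact Dvd.dvd.mul_left (dvd_add (X_pow_dvd_th h1) h2) _
  | 1, Φ, Ψ, hf, h1, h2 => by
    simp only [val] at h1 h2 ⊢
    rw [ev_NTt1 hf]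
    exact Dvd.dvd.mul_left (dvd_add (X_pow_dvd_th h1) h2) _
  | 2, Φ, Ψ, hf, h1, h2 => by
    simp only [val] at h1 h2 ⊢
    rw [ev_NTt2 h hf]
    exact Dvd.dvd.mul_left (dvd_sub (dvd_sub (Dvd.dvd.mul_left h1 _) (X_pow_dvd_th h1)) h2) _
  | 3, Φ, Ψ, hf, h1, h2 => by
    simp only [val] at h1 h2 ⊢
    rw [ev_NTt3 hf]
    exact Dvd.dvd.mul_left (dvd_add (X_pow_dvd_th h1) h2) _

theorem flat_all (x : ℚ) : ∀ g : Gp, Fl g.cusp (tup x g) (par g)
  | .z1 => fl_z1 x
  | .zl => fl_zl x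
  | .z8 => fl_z8 x
  | .zab => fl_zab x
  | .w1 => fl_w1 x
  | .wl => fl_wl x
  | .wy => fl_wy x
  | .w8 => fl_w8 x
  | .wab => fl_wab x
  | .wf7 => fl_wf7 x
  | .v2 => fl_v2 x
  | .vl => fl_vl x
  | .v8 => fl_v8 x
  | .vb => fl_vb x
  | .x2 => fl_x2 x
  | .xl => fl_xl x
  | .x1 => fl_x1 x

theorem val_zero (d : ℕ) (Q : Fin 8 → ℚ[X]) : ∀ c : Fin 4, val d c Q (fun _ => 0) = 0
  | 0 => by simp [val, ev]
  | 1 => by simp [val, ev]
  | 2 => by simp [val, ev2]
  | 3 => by simp [val, ev]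

theorem val_par {d : ℕ} {Q : Fin 8 → ℚ[X]} {x : ℚ} {N : Gp → ℕ} (h1 : N .vb ≤ N .v2)
    (h2 : N .x1 ≤ N .x2) (h : ∀ g, tt ^ N g ∣ val d g.cusp Q (tup x g)) :
    ∀ g, tt ^ N g ∣ val d g.cusp Q (par g) := by
  have hv : tup x .v2 = tup0 .v2 := by
    funext j; simp [tup, tup1]
  have hx : ∀ j, (2 * tup0 .x2 j : PS) = 2 * tup x .x2 j := by
    intro j; simp [tup, tup1]
  intro g
  by_cases g1 : g = .x1
  · subst g1
    have h3 : tt ^ N .x1 ∣ val d 3 Q (tup x .x2) := (pow_dvd_pow _ h2).trans (h .x2)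
    show tt ^ N .x1 ∣ val d 3 Q (fun j => 2 * tup0 .x2 j)
    have h4 : val d 3 Q (fun j => 2 * tup0 .x2 j) = 2 * val d 3 Q (tup x .x2) := by
      simp only [val, ev]
      rw [Finset.mul_sum]
      refine Finset.sum_congr rfl fun j _ => ?_
      rw [hx j]; ring
    rw [h4]
    exact Dvd.dvd.mul_left h3 _
  by_cases g2 : g = .vb
  · subst g2
    show tt ^ N .vb ∣ val d 2 Q (tup0 .v2)
    rw [← hv]
    exact (pow_dvd_pow _ h1).trans (h .v2)
  have h5 : par g = fun _ => 0 := by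
    cases g <;> first | rfl | exact absurd rfl g1 | exact absurd rfl g2
  rw [h5, val_zero]
  exact dvd_zero _

theorem val_iter {d : ℕ} {P : Fin 8 → ℚ[X]} {x : ℚ} {N : Gp → ℕ} (h1 : N .vb ≤ N .v2)
    (h2 : N .x1 ≤ N .x2) (hP : ∀ j, (P j).natDegree ≤ d)
    (h : ∀ g, tt ^ N g ∣ val d g.cusp P (tup x g)) (i : ℕ) :
    (∀ j, (NTt^[i] P j).natDegree ≤ d + 2 * i) ∧
      ∀ g, tt ^ N g ∣ val (d + 2 * i) g.cusp (NTt^[i] P) (tup x g) := by
  induction i with
  | zero => exact ⟨hP, h⟩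
  | succ i ih =>
    obtain ⟨i1, i2⟩ := ih
    rw [Function.iterate_succ_apply', show d + 2 * (i + 1) = d + 2 * i + 2 by ring]
    exact ⟨natDegree_NTt i1, fun g => val_NTt i1 _ _ _ (flat_all x g) (i2 g)
      (val_par h1 h2 i2 g)⟩

/-! ### the pool -/

/-- coefficient vector of a row vector -/
noncomputable def pv {D : ℕ} (v : Fin D × Fin 8 → ℚ) (j : Fin 8) : ℚ[X] :=
  ∑ i : Fin D, C (v (i, j)) * X ^ (i : ℕ)

theorem coeff_pv {D : ℕ} (v : Fin D × Fin 8 → ℚ) (j : Fin 8) (i : Fin D) :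
    (pv v j).coeff i = v (i, j) := by
  simp only [pv, finsetSum_coeff, coeff_C_mul, coeff_X_pow]
  rw [Finset.sum_eq_single i]
  · simp
  · intro b _ hb
    rw [if_neg (fun h => hb (Fin.ext h.symm)), mul_zero]
  · simp

theorem natDegree_pv {D : ℕ} (v : Fin D × Fin 8 → ℚ) (j : Fin 8) :
    (pv v j).natDegree ≤ D - 1 := by
  refine natDegree_sum_le_of_forall_le _ _ fun i _ => ?_
  refine (natDegree_C_mul_X_pow_le _ _).trans ?_
  have := i.2
  omega

theorem sum_swap {D : ℕ} (v : Fin D × Fin 8 → ℚ) (m : ℕ → PS) (Φ : Fin 8 → PS) (a : PS) :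
    a * ∑ j, (∑ i : Fin D, PowerSeries.C (v (i, j)) * m i) * Φ j
      = ∑ r : Fin D × Fin 8, PowerSeries.C (v r) * ((a * m r.1) * Φ r.2) := by
  rw [Fintype.sum_prod_type, Finset.mul_sum, Finset.sum_comm]
  refine Finset.sum_congr rfl fun j _ => ?_
  rw [Finset.sum_mul, Finset.mul_sum]
  refine Finset.sum_congr rfl fun i _ => ?_
  ring

theorem em_pv {D : ℕ} (v : Fin D × Fin 8 → ℚ) (U : PS) (j : Fin 8) :
    em U (pv v j) = ∑ i : Fin D, PowerSeries.C (v (i, j)) * U ^ (i : ℕ) := by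
  rw [pv, map_sum]
  refine Finset.sum_congr rfl fun i _ => ?_
  rw [map_mul, map_pow, em_C, em_X]

theorem rv_sum {ι : Type*} (s : Finset ι) (d : ℕ) (f : ι → ℚ[X]) :
    rv d (∑ i ∈ s, f i) = ∑ i ∈ s, rv d (f i) :=
  map_sum (AddMonoidHom.mk' (rv d) (rv_add d)) f s

theorem rv_pv {D : ℕ} (v : Fin D × Fin 8 → ℚ) (j : Fin 8) :
    rv (D - 1) (pv v j) = ∑ i : Fin D, PowerSeries.C (v (i, j)) * tt ^ (D - 1 - i) := by
  rw [pv, rv_sum]
  refine Finset.sum_congr rfl fun i _ => ?_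
  have := i.2
  rw [rv_monomial (by omega)]

theorem cc_geo : PowerSeries.constantCoeff geo = 1 := by
  rw [← PowerSeries.coeff_zero_eq_constantCoeff_apply, geo, PowerSeries.coeff_mk]

theorem mul_geo1 : (1 - tt) * (1 - 2 * geo) = -(1 + tt) := by
  linear_combination -2 * geo_mul'

theorem mul_geo3 : (1 - tt) * (2 * geo - 1) = 1 + tt := by
  linear_combination 2 * geo_mul'

theorem split_pow {D i : ℕ} (hi : i < D) (a b : PS) :
    a ^ (D - 1) * b ^ i = (a * b) ^ i * a ^ (D - 1 - i) := by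
  rw [mul_pow, show D - 1 = i + (D - 1 - i) by omega, pow_add, show i + (D - 1 - i) - i = D - 1 - i by omega]
  ring

theorem pool_val {D : ℕ} {x : ℚ} (v : Fin D × Fin 8 → ℚ) (g : Gp) :
    ∃ a : PS, PowerSeries.constantCoeff a ≠ 0 ∧
      a * val (D - 1) g.cusp (pv v) (tup x g)
        = ∑ r : Fin D × Fin 8, PowerSeries.C (v r) * (mon D g.cusp r.1 * tup x g r.2) := by
  have key : ∀ c : Fin 4, ∃ a : PS, PowerSeries.constantCoeff a ≠ 0 ∧
      a * val (D - 1) c (pv v) (tup x g)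
        = ∑ r : Fin D × Fin 8, PowerSeries.C (v r) * (mon D c r.1 * tup x g r.2) := by
    intro c
    fin_cases c
    · refine ⟨geo ^ (D - 1), by rw [map_pow, cc_geo, one_pow]; exact one_ne_zero, ?_⟩
      show geo ^ (D - 1) * ev tt (pv v) (tup x g) = _
      simp only [ev, em_pv]
      rw [sum_swap v (fun i => tt ^ i) (tup x g)]
      refine Finset.sum_congr rfl fun r _ => ?_
      show _ = PowerSeries.C (v r) * (mon D 0 r.1 * tup x g r.2)
      rw [mon, mul_comm (geo ^ (D - 1))]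
    · refine ⟨PowerSeries.C (1 / 2 ^ (D - 1)) * (1 - tt) ^ (D - 1), ?_, ?_⟩
      · simp
      show _ * ev (1 - 2 * geo) (pv v) (tup x g) = _
      simp only [ev, em_pv]
      rw [sum_swap v (fun i => (1 - 2 * geo) ^ i) (tup x g)]
      refine Finset.sum_congr rfl fun r _ => ?_
      show _ = PowerSeries.C (v r) * (mon D 1 r.1 * tup x g r.2)
      congr 2
      rw [mon, sc_eq, mul_assoc, split_pow r.1.2, mul_geo1, neg_pow]
      have h : PowerSeries.C ((-1 : ℚ) ^ (r.1 : ℕ) / 2 ^ (D - 1))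
          = PowerSeries.C (1 / 2 ^ (D - 1)) * (-1) ^ (r.1 : ℕ) := by
        rw [← psC_neg_one, ← map_pow, ← map_mul]
        congr 1; ring
      rw [h]; ring
    · refine ⟨PowerSeries.C ((-1) ^ (D - 1)) * geo ^ (D - 1), ?_, ?_⟩
      · simp [cc_geo]
      show _ * ev2 (D - 1) (pv v) (tup x g) = _
      simp only [ev2, rv_pv]
      rw [sum_swap v (fun i => tt ^ (D - 1 - i)) (tup x g)]
      refine Finset.sum_congr rfl fun r _ => ?_
      show _ = PowerSeries.C (v r) * (mon D 2 r.1 * tup x g r.2)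
      congr 2
      rw [mon, sc_eq]; ring
    · refine ⟨PowerSeries.C (1 / (-2) ^ (D - 1)) * (1 - tt) ^ (D - 1), ?_, ?_⟩
      · simp
      show _ * ev (2 * geo - 1) (pv v) (tup x g) = _
      simp only [ev, em_pv]
      rw [sum_swap v (fun i => (2 * geo - 1) ^ i) (tup x g)]
      refine Finset.sum_congr rfl fun r _ => ?_
      show _ = PowerSeries.C (v r) * (mon D 3 r.1 * tup x g r.2)
      congr 2
      rw [mon, sc_eq, mul_assoc, split_pow r.1.2, mul_geo3]
  exact key g.cusp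

theorem coeff_pool {D : ℕ} {x : ℚ} (v : Fin D × Fin 8 → ℚ) (g : Gp) (k : ℕ) :
    PowerSeries.coeff k (∑ r : Fin D × Fin 8,
      PowerSeries.C (v r) * (mon D g.cusp r.1 * tup x g r.2)) = ∑ r, v r * En D x r (g, k) := by
  rw [map_sum]
  refine Finset.sum_congr rfl fun r _ => ?_
  rw [PowerSeries.coeff_C_mul]
  congr 1
  rw [En, ent0, ent1, tup, mul_add, map_add]
  congr 1
  rw [mul_left_comm, PowerSeries.coeff_C_mul]
  rfl

theorem base {D : ℕ} {x : ℚ} {v : Fin D × Fin 8 → ℚ} {g : Gp} {N : ℕ}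
    (h : ∀ k < N, ∑ r, v r * En D x r (g, k) = 0) :
    tt ^ N ∣ val (D - 1) g.cusp (pv v) (tup x g) := by
  obtain ⟨a, ha, he⟩ := pool_val (x := x) v g
  refine dvd_of_unit_mul ha ?_
  rw [he, PowerSeries.X_pow_dvd_iff]
  intro k hk
  rw [coeff_pool, h k hk]

/-! ### the determinant -/

section Core

variable {Λ : Submodule ℚ (Fin 8 → ℚ)} (b : Module.Basis (Fin (Module.finrank ℚ Λ)) ℚ Λ)

/-- a functional of a combination of groups which vanishes on a basis of `Λ` vanishes on `Λ` -/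
theorem functional_zero (x : ℚ) (J : Finset Gp) (a : Gp → ℚ)
    (h : ∀ m, ∑ g ∈ J, a g * ∑ j, ini x g j * (b m : Fin 8 → ℚ) j = 0) (v : Fin 8 → ℚ)
    (hv : v ∈ Λ) : ∑ g ∈ J, a g * ∑ j, ini x g j * v j = 0 := by
  let l : (Fin 8 → ℚ) →ₗ[ℚ] ℚ :=
    ∑ g ∈ J, a g • ∑ j, ini x g j • (LinearMap.proj j : (Fin 8 → ℚ) →ₗ[ℚ] ℚ)
  have hl : ∀ w, l w = ∑ g ∈ J, a g * ∑ j, ini x g j * w j := by
    intro w
    simp [l, LinearMap.sum_apply, LinearMap.smul_apply, smul_eq_mul]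
  have h0 : l ∘ₗ Λ.subtype = 0 := by
    refine b.ext fun m => ?_
    rw [LinearMap.comp_apply, Submodule.subtype_apply, hl, h m, LinearMap.zero_apply]
  have := LinearMap.congr_fun h0 ⟨v, hv⟩
  rw [LinearMap.comp_apply, Submodule.subtype_apply, hl, LinearMap.zero_apply] at this
  exact this

/-- the columns of a cusp divide the determinant -/
theorem cusp_dvd {x : ℚ} {J : Finset Gp} {c : Fin 4}
    (hJ : ∀ a : Gp → ℚ, (∀ g, a g ≠ 0 → g ∈ J ∧ g.cusp = c) →
      (∀ v ∈ Λ, ∑ g ∈ J, a g * ∑ j, ini x g j * v j = 0) → ∀ g, a g = 0)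
    {N : Gp → ℕ} (E : Fin (Module.finrank ℚ Λ) → (ℚ[X] →+ PS))
    (hE : ∀ i p a, E i (p * C a) = E i p * PowerSeries.C a)
    (q : Matrix (Fin (Module.finrank ℚ Λ)) (Fin (Module.finrank ℚ Λ)) ℚ[X])
    (Q : Fin (Module.finrank ℚ Λ) → Fin 8 → ℚ[X])
    (hq : ∀ i j, ∑ m, q i m * C ((b m : Fin 8 → ℚ) j) = Q i j)
    (hN : ∀ i, ∀ g ∈ J, g.cusp = c → tt ^ N g ∣ ∑ j, E i (Q i j) * tup x g j) :
    tt ^ (∑ g ∈ J with g.cusp = c, N g) ∣ (Matrix.of fun i m => E i (q i m)).det := by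
  classical
  rw [← Finset.sum_coe_sort]
  refine X_pow_dvd_det (ι := {g // g ∈ J.filter fun g => g.cusp = c}) _
    (fun g m => ∑ j, PowerSeries.C ((b m : Fin 8 → ℚ) j) * tup x g j) _ ?_ ?_
  · rw [Fintype.linearIndependent_iff]
    intro a ha
    set a' : Gp → ℚ := fun g => if h : g ∈ J.filter fun g => g.cusp = c then a ⟨g, h⟩ else 0
      with ha'
    have h1 : ∀ g, a' g ≠ 0 → g ∈ J ∧ g.cusp = c := by
      intro g hg
      by_contra hn
      apply hg
      rw [ha']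
      exact dif_neg fun h => hn (Finset.mem_filter.1 h)
    have h2 : ∀ m, ∑ g ∈ J, a' g * ∑ j, ini x g j * (b m : Fin 8 → ℚ) j = 0 := by
      intro m
      have h3 := congrFun ha m
      rw [Finset.sum_apply] at h3
      rw [Pi.zero_apply] at h3
      rw [← h3]
      have h4 : ∑ g ∈ J, a' g * ∑ j, ini x g j * (b m : Fin 8 → ℚ) j
          = ∑ g ∈ J.filter fun g => g.cusp = c, a' g * ∑ j, ini x g j * (b m : Fin 8 → ℚ) j := by
        symm
        refine Finset.sum_subset (Finset.filter_subset _ _) fun g _ hg => ?_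
        rw [ha']
        simp only
        rw [dif_neg hg, zero_mul]
      rw [h4, ← Finset.sum_coe_sort]
      refine Finset.sum_congr rfl fun g _ => ?_
      rw [Pi.smul_apply, smul_eq_mul, map_sum]
      have h5 : a' g = a g := by
        rw [ha']; exact dif_pos g.2
      rw [h5]
      congr 1
      refine Finset.sum_congr rfl fun j _ => ?_
      rw [map_mul, PowerSeries.constantCoeff_C, ini, mul_comm]
    have h6 := hJ a' h1 (functional_zero b x J a' h2)
    intro g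
    have := h6 g
    rw [ha'] at this
    simp only at this
    rw [dif_pos g.2] at this
    exact this
  · rintro i ⟨g, hg⟩
    obtain ⟨hg1, hg2⟩ := Finset.mem_filter.1 hg
    have h7 := hN i g hg1 hg2
    have h8 : ∑ j, E i (Q i j) * tup x g j
        = ∑ m, (Matrix.of fun i m => E i (q i m)) i m
          * ∑ j, PowerSeries.C ((b m : Fin 8 → ℚ) j) * tup x g j := by
      simp only [← hq, map_sum, hE, Matrix.of_apply, Finset.sum_mul, Finset.mul_sum]
      rw [Finset.sum_comm]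
      refine Finset.sum_congr rfl fun m _ => Finset.sum_congr rfl fun j _ => ?_
      ring
    rw [h8] at h7
    exact h7

end Core

theorem core {Λ : Submodule ℚ (Fin 8 → ℚ)} {Q : Fin (Module.finrank ℚ Λ) → Fin 8 → ℚ[X]}
    (hQ : ∀ i n, (fun j => (Q i j).coeff n) ∈ Λ) (hli : LinearIndependent ℚ[X] Q)
    {d : Fin (Module.finrank ℚ Λ) → ℕ} (hd : ∀ i j, (Q i j).natDegree ≤ d i) {x : ℚ}
    {J : Finset Gp} (hJ : ∀ (c : Fin 4) (a : Gp → ℚ), (∀ g, a g ≠ 0 → g ∈ J ∧ g.cusp = c) →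
      (∀ v ∈ Λ, ∑ g ∈ J, a g * ∑ j, ini x g j * v j = 0) → ∀ g, a g = 0)
    {N : Gp → ℕ} (hN : ∀ i g, tt ^ N g ∣ val (d i) g.cusp (Q i) (tup x g)) :
    ∑ g ∈ J, N g ≤ ∑ i, d i := by
  classical
  obtain ⟨π, hπ⟩ := LinearMap.exists_leftInverse_of_injective Λ.subtype
    (Submodule.ker_subtype Λ)
  set b := Module.finBasis ℚ Λ with hb
  set ρ : (Fin 8 → ℚ) →ₗ[ℚ] (Fin (Module.finrank ℚ Λ) → ℚ) := b.equivFun.toLinearMap ∘ₗ π with hρ
  have hρ1 : ∀ w ∈ Λ, ∑ m, ρ w m • (b m : Fin 8 → ℚ) = w := by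
    intro w hw
    have h1 : π w = ⟨w, hw⟩ := LinearMap.congr_fun hπ ⟨w, hw⟩
    have h2 := b.sum_equivFun ⟨w, hw⟩
    have h3 := congrArg Λ.subtype h2
    rw [map_sum] at h3
    simp only [map_smul, Submodule.subtype_apply] at h3
    refine Eq.trans (Finset.sum_congr rfl fun m _ => ?_) h3
    rw [hρ, LinearMap.comp_apply, h1]
    rfl
  set q : Matrix (Fin (Module.finrank ℚ Λ)) (Fin (Module.finrank ℚ Λ)) ℚ[X] :=
    Matrix.of fun i m => ∑ k, C (ρ (fun j => if k = j then 1 else 0) m) * Q i k with hq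
  have hqL : ∀ i j, ∑ m, q i m * C ((b m : Fin 8 → ℚ) j) = Q i j := by
    intro i j
    ext n
    have h1 := congrFun (hρ1 _ (hQ i n)) j
    rw [Finset.sum_apply] at h1
    rw [finsetSum_coeff, ← h1]
    refine Finset.sum_congr rfl fun m _ => ?_
    rw [coeff_mul_C, Pi.smul_apply, smul_eq_mul]
    congr 1
    rw [hq, Matrix.of_apply, finsetSum_coeff, LinearMap.pi_apply_eq_sum_univ ρ, Finset.sum_apply]
    refine Finset.sum_congr rfl fun k _ => ?_
    rw [coeff_C_mul, Pi.smul_apply, smul_eq_mul, mul_comm]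
  have hqd : ∀ i m, (q i m).natDegree ≤ d i := by
    intro i m
    rw [hq, Matrix.of_apply]
    exact natDegree_sum_le_of_forall_le _ _ fun k _ => (natDegree_C_mul_le _ _).trans (hd i k)
  have hdet : q.det ≠ 0 := by
    intro h0
    obtain ⟨w, hw, hwq⟩ := Matrix.exists_vecMul_eq_zero_iff.2 h0
    apply hw
    funext i
    refine Fintype.linearIndependent_iff.1 hli w ?_ i
    funext j
    rw [Finset.sum_apply, Pi.zero_apply]
    have h1 : ∀ i, (w i • Q i) j = ∑ m, w i * q i m * C ((b m : Fin 8 → ℚ) j) := by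
      intro i
      rw [Pi.smul_apply, smul_eq_mul, ← hqL i j, Finset.mul_sum]
      refine Finset.sum_congr rfl fun m _ => by ring
    simp only [h1]
    rw [Finset.sum_comm]
    refine Finset.sum_eq_zero fun m _ => ?_
    rw [← Finset.sum_mul]
    have h2 := congrFun hwq m
    rw [Matrix.vecMul, dotProduct, Pi.zero_apply] at h2
    rw [h2, zero_mul]
  -- finite cusps
  have fin : ∀ (c : Fin 4) (U V : PS) (u0 : ℚ), U - PowerSeries.C u0 = PowerSeries.X * V →
      PowerSeries.constantCoeff V ≠ 0 → (∀ e Q Φ, val e c Q Φ = ev U Q Φ) →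
      (X - C u0) ^ (∑ g ∈ J with g.cusp = c, N g) ∣ q.det := by
    intro c U V u0 hU hV hval
    refine pow_dvd_of_em hU hV hdet ?_
    have h1 := cusp_dvd b (hJ c) (N := N) (fun _ => (em U).toAddMonoidHom)
      (fun i p a => by
        show em U (p * C a) = em U p * PowerSeries.C a
        rw [map_mul, em_C]) q Q hqL
      (fun i g _ hg => by
        have h2 := hN i g
        rw [hg, hval] at h2
        exact h2)
    rw [RingHom.map_det]
    exact h1
  have d0 : (X - C 0) ^ (∑ g ∈ J with g.cusp = 0, N g) ∣ q.det :=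
    fin 0 tt 1 0 (by simp) (by simp) (fun _ _ _ => rfl)
  have d1 : (X - C (-1)) ^ (∑ g ∈ J with g.cusp = 1, N g) ∣ q.det :=
    fin 1 (1 - 2 * geo) (-2 * geo) (-1)
      (by rw [psC_neg_one]; linear_combination (-2 : PS) * geo_mul')
      (by rw [map_mul, cc_geo, map_neg, map_ofNat]; norm_num) (fun _ _ _ => rfl)
  have d3 : (X - C 1) ^ (∑ g ∈ J with g.cusp = 3, N g) ∣ q.det :=
    fin 3 (2 * geo - 1) (2 * geo) 1
      (by rw [map_one]; linear_combination (2 : PS) * geo_mul')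
      (by rw [map_mul, cc_geo, map_ofNat]; norm_num) (fun _ _ _ => rfl)
  -- infinity
  have d2 : q.det.natDegree + (∑ g ∈ J with g.cusp = 2, N g) ≤ ∑ i, d i := by
    obtain ⟨r1, r2⟩ := reflect_det q d hqd
    refine natDegree_of_dvd_reflect hdet r2 ?_
    rw [← r1]
    have h1 := cusp_dvd b (hJ 2) (N := N) (fun i => AddMonoidHom.mk' (rv (d i)) (rv_add (d i)))
      (fun i p a => by
        show rv (d i) (p * C a) = rv (d i) p * PowerSeries.C a
        rw [rv, rv, mul_comm p, reflect_C_mul, Polynomial.coe_mul, Polynomial.coe_C, mul_comm])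
      q Q hqL
      (fun i g _ hg => by
        have h2 := hN i g
        rw [hg] at h2
        exact h2)
    have h3 : ((Matrix.of fun i m => reflect (d i) (q i m)).det : PowerSeries ℚ)
        = (Matrix.of fun i m => rv (d i) (q i m)).det := by
      rw [← Polynomial.coeToPowerSeries.ringHom_apply, RingHom.map_det]
      rfl
    rw [h3]
    exact h1
  have hcop : ∀ a b : ℚ, a ≠ b → ∀ m n : ℕ, IsCoprime ((X - C a) ^ m) ((X - C b) ^ n) := by
    intro a b hab m n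
    exact (isCoprime_X_sub_C_of_isUnit_sub (sub_ne_zero.2 hab).isUnit).pow
  have d13 := (hcop (-1) 1 (by norm_num) _ _).mul_dvd d1 d3
  have d013 := (IsCoprime.mul_right (hcop 0 (-1) (by norm_num) _ _)
    (hcop 0 1 (by norm_num) _ _)).mul_dvd d0 d13
  have hdeg := natDegree_le_of_dvd d013 hdet
  have hne : ∀ a : ℚ, ∀ m : ℕ, (X - C a) ^ m ≠ 0 := fun a m => pow_ne_zero _ (X_sub_C_ne_zero a)
  rw [natDegree_mul (hne _ _) (mul_ne_zero (hne _ _) (hne _ _)), natDegree_mul (hne _ _) (hne _ _),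
    natDegree_pow, natDegree_pow, natDegree_pow, natDegree_X_sub_C, natDegree_X_sub_C,
    natDegree_X_sub_C] at hdeg
  have hsum := Finset.sum_fiberwise J (fun g => g.cusp) N
  rw [Fin.sum_univ_four] at hsum
  omega

/-- **the zero estimate** -/
theorem stZE_of {Pr : Par} {c0 : ℕ} (hL : LamSt) (hT : TableSt Pr)
    (h1 : Pr.ht .vb ≤ Pr.ht .v2) (h2 : Pr.ht .x1 ≤ Pr.ht .x2) (hc : 7 ≤ c0) : StZE Pr c0 := by
  intro x
  refine ⟨0, fun s _ v hv => ?_⟩
  by_contra hne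
  have hP : pv v ≠ 0 := by
    intro h0
    apply hne
    funext ⟨i, j⟩
    rw [← coeff_pv v j i, h0]
    simp
  have hD : 0 < Pr.D0 * s := by
    by_contra h0
    apply hne
    funext ⟨i, j⟩
    have := i.2
    omega
  obtain ⟨Λ, hS, hmem, hli⟩ := hL _ hP
  obtain ⟨J, hJ, hs, hcard⟩ := hT x Λ hS
  have hb : ∀ g, tt ^ (Pr.ht g * s + c0) ∣ val (Pr.D0 * s - 1) g.cusp (pv v) (tup x g) :=
    fun g => base fun k hk => hv (g, k) hk
  have hit := val_iter (N := fun g => Pr.ht g * s + c0)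
    (by have := Nat.mul_le_mul_right s h1; simpa using this)
    (by have := Nat.mul_le_mul_right s h2; simpa using this) (natDegree_pv v) hb
  have hco := core (Q := fun i : Fin (Module.finrank ℚ Λ) => NTt^[(i : ℕ)] (pv v))
    (fun i n => hmem i n) hli (d := fun i => Pr.D0 * s - 1 + 2 * (i : ℕ))
    (fun i j => (hit i).1 j) hJ (N := fun g => Pr.ht g * s + c0) (fun i g => (hit i).2 g)
  set r := Module.finrank ℚ Λ with hr
  have hr8 : r ≤ 8 := by
    have := Submodule.finrank_le Λ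
    simpa using this
  have hr0 : 0 < r := by
    rw [hr, Module.finrank_pos_iff]
    rw [Submodule.nontrivial_iff_ne_bot]
    exact hS.ne
  have e1 : ∑ i : Fin r, (Pr.D0 * s - 1 + 2 * (i : ℕ)) = r * (Pr.D0 * s - 1) + r * (r - 1) := by
    rw [Finset.sum_add_distrib, Finset.sum_const, Finset.card_univ, Fintype.card_fin,
      smul_eq_mul, ← Finset.mul_sum, Fin.sum_univ_eq_sum_range (fun i => i) r, mul_comm 2,
      Finset.sum_range_id_mul_two]
  have e2 : ∑ g ∈ J, (Pr.ht g * s + c0) = (∑ g ∈ J, Pr.ht g) * s + J.card * c0 := by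
    rw [Finset.sum_add_distrib, Finset.sum_const, smul_eq_mul, Finset.sum_mul]
  rw [e1, e2] at hco
  have e3 : r * Pr.D0 * s ≤ (∑ g ∈ J, Pr.ht g) * s := Nat.mul_le_mul_right s hs
  have e4 : r * c0 ≤ J.card * c0 := Nat.mul_le_mul_right c0 hcard
  have e5 : r * (Pr.D0 * s) + r * c0 ≤ r * (Pr.D0 * s - 1) + r * (r - 1) := by
    calc r * (Pr.D0 * s) + r * c0 = r * Pr.D0 * s + r * c0 := by ring
      _ ≤ _ := by omega
  rw [← mul_add, ← mul_add] at e5
  have e6 := Nat.le_of_mul_le_mul_left e5 hr0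
  omega

end Vale.Agent.P030.H782
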