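import Vale.Agent.P030.H639.N8a
import Vale.Agent.P030.H639.N8b

/-!
# Route N, cusp `c3`: transitions between the cell `F9` and the exterior disc frame (constants)

Rows `e, a, c, d, h, d+g, A0/π, A3/π`.  `BF9` = constants of the cell, `BD3` = constants of the disc
(real rows `e, a, -(x1 + (l/2) xl), xl, 2 x2, d+g | A3`), `LA3 T` = the logarithm in these rows.
-/

open Matrix

namespace Vale.Agent.P030.H782

open Vale.Agent.P030.AR Vale.Agent.P030.H639 Vale.Agent.P030.H265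

set_option linter.unusedSimpArgs false
set_option linter.unreachableTactic false
set_option linter.unusedTactic false

noncomputable section

/-- the change of rows -/
def AL : Matrix (Fin 8) (Fin 8) ℂ :=
  !![1, 0, 0, 0, 0, 0, 0, 0;
     0, 1, 0, 0, 0, 0, 0, 0;
     0, 0, 1, 0, 0, 0, 0, 0;
     0, 0, 0, 1, 0, 0, 0, 0;
     0, 0, 0, 0, 0, 1, 0, 0;
     0, 0, 0, 1, 1, 0, 0, 0;
     0, 0, 0, 0, 0, 0, pc⁻¹, 0;
     0, 0, 0, 0, 0, 0, 0, pc⁻¹]

/-- the cell `F9 = (e, a, Q, Xl, X2, s6 | A0)` -/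
def BF9 : Matrix (Fin 8) (Fin 8) ℂ :=
  !![1, 0, 0, 0, 0, 0, 0, 0;
     0, 1, 0, 0, 0, 0, 0, 0;
     0, 0, 1, l2 / 2, l2 / 2 - Complex.I * pc, -(l2 / 2), -(pc / 4), Complex.I * pc / 4;
     0, 0, 0, 1, 1, -1, 0, 1;
     0, 0, 0, 0, 1, 0, 0, -(1 / 4);
     0, 0, 0, 0, 0, 1, 3 * Complex.I / 2, 3 / 4;
     0, 0, 0, 0, 0, 0, 1, 0;
     0, 0, 0, 0, 0, 0, 0, 0]

/-- the disc: `e, a, -(x1 + (l/2) xl), xl, 2 x2, d+g | A3`, real at `T = 0` -/
def BD3 : Matrix (Fin 8) (Fin 8) ℂ :=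
  !![1, 0, 0, 0, 0, 0, 0, 0;
     0, 1, 0, 0, 0, 0, 0, 0;
     0, 0, 1, l2 / 2, l2 / 2, -(l2 / 2), -(pc / 4), 0;
     0, 0, 0, 1, 1, -1, 0, 1;
     0, 0, 0, 0, 1, 0, 0, -(1 / 4);
     0, 0, 0, 0, 0, 1, 0, 0;
     0, 0, 0, 0, 0, 0, 0, 1;
     0, 0, 0, 0, 0, 0, 0, 0]

/-- the logarithm in the rows `AL` -/
def LA3 (T : ℂ) : Matrix (Fin 8) (Fin 8) ℂ :=
  !![1, 0, -T, -(l2 / 2 * T), -(l2 / 2 * T) + T ^ 2 / 2, l2 / 2 * T, pc * T / 4, -(T ^ 2 / 8);
     0, 1, 0, T / 2, -(T / 2), -(T / 2), 0, 0;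
     0, 0, 1, 0, -T, 0, 0, 0;
     0, 0, 0, 1, 0, 0, 0, 0;
     0, 0, 0, 0, 1, 0, 0, 0;
     0, 0, 0, 0, 0, 1, 0, 0;
     0, 0, 0, 0, 0, 0, 1, -(1 / pc * T);
     0, 0, 0, 0, 0, 0, 0, 1]

theorem AL_E3 (T : ℂ) : AL * E 3 T = LA3 T * AL := by
  have hp := pc_ne
  ext i j
  revert j
  fin_cases i <;> intro j <;> fin_cases j <;>
    simp [AL, E, LA3, Matrix.mul_apply, Fin.sum_univ_eight]
  all_goals first
    | ring1
    | (field_simp; done)
    | (field_simp; ring1)

/-- cell to disc -/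
def Mu3 (T : ℂ) : Matrix (Fin 8) (Fin 8) ℂ :=
  !![1, 0, -T, 0, T ^ 2 / 2, 0, 0, 0;
     0, 1, 0, T / 2, -T, 0, 0, -(3 * T / 4);
     0, 0, 1, 0, -(T + Complex.I * pc), 0, 0, 0;
     0, 0, 0, 1, 0, 0, 0, 0;
     0, 0, 0, 0, 1, 0, 0, 0;
     0, 0, 0, 0, 0, 1, 3 * Complex.I / 2, 3 / 4 - 3 * Complex.I * T / (2 * pc);
     0, 0, 0, 0, 0, 0, 1, -(1 / pc * T);
     0, 0, 0, 0, 0, 0, 0, 0]

/-- disc to cell -/
def Md3 (T : ℂ) : Matrix (Fin 8) (Fin 8) ℂ :=
  !![1, 0, T, 0, T ^ 2 / 2 + Complex.I * pc * T, 0, 0, 0;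
     0, 1, 0, -(T / 2), T, 0, 0, 3 * T / 4;
     0, 0, 1, 0, T + Complex.I * pc, 0, 0, 0;
     0, 0, 0, 1, 0, 0, 0, 0;
     0, 0, 0, 0, 1, 0, 0, 0;
     0, 0, 0, 0, 0, 1, -(3 * Complex.I / 2), -(3 / 4);
     0, 0, 0, 0, 0, 0, 0, 1;
     0, 0, 0, 0, 0, 0, 0, 0]

theorem rel_up3 (T : ℂ) : Rel BF9 (LA3 T) BD3 (Mu3 T) := by
  have hp := pc_ne
  have hI : Complex.I ^ 2 = -1 := Complex.I_sq
  have hI3 : Complex.I ^ 3 = -Complex.I := by rw [pow_succ, hI]; ring
  refine ⟨?_, ?_, ?_⟩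
  · intro b hb i
    fin_cases b <;> first
      | exact absurd hb (by decide)
      | (fin_cases i <;>
          simp [BF9, BD3, LA3, Mu3, Fin.sum_univ_eight])
    all_goals first
      | ring1
      | (field_simp; done)
      | (field_simp; ring1)
      | (field_simp; ring_nf; simp only [hI, hI3]; ring1)
  · intro i hi
    rcases hi with rfl | rfl <;> simp [BF9, LA3, Mu3]
  · intro j hj
    fin_cases j <;> first
      | exact absurd hj (by decide)
      | (simp [LA3])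

theorem rel_dn3 (T : ℂ) : Rel BD3 (LA3 (-T)) BF9 (Md3 T) := by
  have hp := pc_ne
  have hI : Complex.I ^ 2 = -1 := Complex.I_sq
  have hI3 : Complex.I ^ 3 = -Complex.I := by rw [pow_succ, hI]; ring
  refine ⟨?_, ?_, ?_⟩
  · intro b hb i
    fin_cases b <;> first
      | exact absurd hb (by decide)
      | (fin_cases i <;>
          simp [BF9, BD3, LA3, Md3, Fin.sum_univ_eight])
    all_goals first
      | ring1
      | (field_simp; done)
      | (field_simp; ring1)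
      | (field_simp; ring_nf; simp only [hI, hI3]; ring1)
  · intro i hi
    rcases hi with rfl | rfl <;> simp [BD3, LA3, Md3]
  · intro j hj
    fin_cases j <;> first
      | exact absurd hj (by decide)
      | (simp [LA3])

theorem cst_BF9 : Cst BF9 := by
  refine ⟨?_, ?_, ?_⟩
  · intro i j hi hij
    fin_cases i <;> fin_cases j <;>
      first
        | (exact absurd hi (by decide))
        | (exact absurd hij (by decide))
        | (simp [BF9])
  · intro i hi
    fin_cases i <;>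
      first
        | (exact absurd hi (by decide))
        | (simp [BF9])
  · intro j hj
    fin_cases j <;>
      first
        | (exact absurd hj (by decide))
        | (simp [BF9])

theorem cst_BD3 : Cst BD3 := by
  refine ⟨?_, ?_, ?_⟩
  · intro i j hi hij
    fin_cases i <;> fin_cases j <;>
      first
        | (exact absurd hi (by decide))
        | (exact absurd hij (by decide))
        | (simp [BD3])
  · intro i hi
    fin_cases i <;>
      first
        | (exact absurd hi (by decide))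
        | (simp [BD3])
  · intro j hj
    fin_cases j <;>
      first
        | (exact absurd hj (by decide))
        | (simp [BD3])

/-- the pairs of levels from the cell to the disc -/
def patU3 : List (Fin 8 × Fin 8) :=
  [(0, 2), (0, 4), (1, 3), (1, 4), (1, 6), (2, 4), (5, 6), (5, 7), (6, 7)]

/-- the pairs of levels from the disc to the cell (and all pairs of the circle) -/
def pat3 : List (Fin 8 × Fin 8) :=
  [(0, 2), (0, 4), (1, 3), (1, 4), (1, 6), (1, 7), (2, 4), (5, 6), (5, 7), (6, 7)]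

theorem patU3_sub {x : Fin 8 × Fin 8} (h : x ∈ patU3) : x ∈ pat3 := by
  revert h; revert x; decide

theorem zr_up3 (T : ℂ) {b c : Fin 8} (hbc : b ≠ c) (h : (b, c) ∉ patU3) :
    Zr (Mu3 T) BD3 b c := by
  fin_cases b <;> fin_cases c <;>
    first
      | exact absurd rfl hbc
      | exact absurd (by decide) h
      | (simp [Zr, Mu3, BD3]; done)
      | (simp [Zr, Mu3, BD3]; ring1)

theorem zr_dn3 (T : ℂ) {b c : Fin 8} (hbc : b ≠ c) (h : (b, c) ∉ pat3) :
    Zr (Md3 T) BF9 b c := by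
  fin_cases b <;> fin_cases c <;>
    first
      | exact absurd rfl hbc
      | exact absurd (by decide) h
      | (simp [Zr, Md3, BF9]; done)
      | (simp [Zr, Md3, BF9]; ring1)

end

end Vale.Agent.P030.H782
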