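import Vale.Agent.P030.H352.DiscR
import Vale.Agent.P030.H639.N8d
import Vale.Agent.P030.H782.C3Tr

/-!
# P030, route N: transitions between a flat cell and the disc of a cusp, in the `S`-plane

General form for all four cusps from the constant relations (`H639.Rel`), with the discs `H352.Dz`,
and the instance `c3` (cell `F9`).  The mirror half by `H352.tr_mirror`.
-/

open Matrix Filter Topology
open scoped ComplexConjugate

namespace Vale.Agent.P030.H782

open Vale.Agent.P030.T Vale.Agent.P030.H462 Vale.Agent.P030.AR Vale.Agent.P030.H265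
open Vale.Agent.P030.H580 Vale.Agent.P030.H639 Vale.Agent.P030.H352

noncomputable section

/-- the rows -/
def rowv (V : Fin 8 → Fin 8 → ℂ) : Fin 8 → Fin 8 → ℂ :=
  ![V 0, V 1, V 2, V 3, V 5, V 3 + V 4, (1 / pc) • V 6, (1 / pc) • V 7]

theorem Ar_mul (V : Matrix (Fin 8) (Fin 8) ℂ) (i l : Fin 8) : (Ar * V) i l = rowv V i l := by
  rw [Matrix.mul_apply, Fin.sum_univ_eight]
  fin_cases i <;> simp [Ar, rowv]

theorem mul_Qr (V : Matrix (Fin 8) (Fin 8) ℂ) (i j : Fin 8) : (V * Qr) i j = colY (V i) j := by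
  rw [Matrix.mul_apply, Fin.sum_univ_eight]
  fin_cases j <;> simp [Qr, colY]
  ring

theorem adm_row' (V : Fin 8 → Fin 8 → ℂ) (i : Fin 8) : adm Ar Qr V i = colY (rowv V i) := by
  funext j
  have h : (Ar * Matrix.of V) i = rowv V i := funext fun l => Ar_mul V i l
  change ((Ar * Matrix.of V) * Qr) i j = _
  rw [mul_Qr, h]

variable {X : Fin 8 → ℂ → Fin 8 → ℂ}

/-- **the flat matrix near a cusp** -/
theorem Pz_glc (hX : YD X) (c : Fin 4) {z : ℂ} (hz : yz z ∈ RY c) :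
    Pz X z = adm Ar Qr (glc c (TY c (yz z)) (tz c z)) := by
  have h : ∀ i, X i (yz z) = glc c (TY c (yz z)) (tz c z) i := fun i => hX.cusp c i _ hz
  have h2 : rowX X (yz z) = rowv (glc c (TY c (yz z)) (tz c z)) := by
    unfold rowX rowv
    simp only [h]
  funext i
  rw [adm_row', ← h2]
  rfl

theorem tz_of_RY {c : Fin 4} {z : ℂ} (hz : yz z ∈ RY c) : z ∈ Ud c ∧ tz c z ≠ 0 := by
  have hne : ∀ a : ℝ, ((yz z).im < 0 ∨ (yz z).re ≠ a) → yz z - a ≠ 0 := by
    intro a h h0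
    have h1 : yz z = a := sub_eq_zero.1 h0
    rw [h1] at h
    simp at h
  fin_cases c
  · have h : (yz z).re < 0 ∧ ((yz z).im < 0 ∨ (yz z).re ≠ -1) := hz
    refine ⟨h.1, ?_⟩
    have h1 := hne (-1) h.2
    have h2 := hne 1 (Or.inr (by linarith [h.1]))
    change (yz z + 1) / (yz z - 1) ≠ 0
    refine div_ne_zero ?_ (by simpa using h2)
    simpa using h1
  · have h : ‖yz z‖ < 1 ∧ ((yz z).im < 0 ∨ (yz z).re ≠ 0) := hz
    refine ⟨h.1, ?_⟩
    have h1 := hne 0 h.2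
    change yz z ≠ 0
    simpa using h1
  · have h : 0 < (yz z).re ∧ ((yz z).im < 0 ∨ (yz z).re ≠ 1) := hz
    refine ⟨h.1, ?_⟩
    have h1 := hne (-1) (Or.inr (by linarith [h.1]))
    have h2 := hne 1 h.2
    change (yz z - 1) / (yz z + 1) ≠ 0
    refine div_ne_zero (by simpa using h2) ?_
    simpa using h1
  · have h : 1 < ‖yz z‖ ∧ ((yz z).im < 0 ∨ 1 < |(yz z).re|) := hz
    exact ⟨h.1, tz3_ne h.1⟩

theorem RY_sub {c : Fin 4} {z : ℂ} (hz : yz z ∈ RY c) : z ∈ OmP := by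
  change yz z ∈ OmY
  fin_cases c
  · have h : (yz z).re < 0 ∧ ((yz z).im < 0 ∨ (yz z).re ≠ -1) := hz
    rcases h.2 with h2 | h2
    · exact Or.inl h2
    · exact Or.inr ⟨h2, h.1.ne, by linarith [h.1]⟩
  · have h : ‖yz z‖ < 1 ∧ ((yz z).im < 0 ∨ (yz z).re ≠ 0) := hz
    have h3 := (Complex.abs_re_le_norm (yz z)).trans_lt h.1
    rw [abs_lt] at h3
    rcases h.2 with h2 | h2
    · exact Or.inl h2
    · exact Or.inr ⟨h3.1.ne', h2, h3.2.ne⟩
  · have h : 0 < (yz z).re ∧ ((yz z).im < 0 ∨ (yz z).re ≠ 1) := hz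
    rcases h.2 with h2 | h2
    · exact Or.inl h2
    · exact Or.inr ⟨by linarith [h.1], h.1.ne', h2⟩
  · have h : 1 < ‖yz z‖ ∧ ((yz z).im < 0 ∨ 1 < |(yz z).re|) := hz
    rcases h.2 with h2 | h2
    · exact Or.inl h2
    · refine Or.inr ⟨?_, ?_, ?_⟩ <;> intro h3 <;> rw [h3] at h2 <;> norm_num at h2

/-- the flat matrix over the disc matrix -/
theorem Pz_over (hX : YD X) (c : Fin 4) {z : ℂ} (hz : yz z ∈ RY c) :
    Pz X z = EP c (TY c (yz z)) * adm Ar Qr (glc c 0 (tz c z)) := by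
  obtain ⟨h1, h2⟩ := tz_of_RY hz
  have hA : APi * Ar = 1 := APi_mul
  rw [Pz_glc hX c hz, adm_glc c (TY c (yz z)) (norm_tz_lt h1) h2 hA Qr]
  congr 1
  exact AP_E_APi c _

/-- the disc matrix over the flat matrix -/
theorem over_Pz (hX : YD X) (c : Fin 4) {z : ℂ} (hz : yz z ∈ RY c) :
    adm Ar Qr (glc c 0 (tz c z)) = EP c (-TY c (yz z)) * Pz X z := by
  obtain ⟨h1, h2⟩ := tz_of_RY hz
  have hA : APi * Ar = 1 := APi_mul
  rw [Pz_glc hX c hz, adm_glc0 c (TY c (yz z)) (norm_tz_lt h1) h2 hA Qr]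
  congr 1
  exact AP_E_APi c _

theorem disc_kF {c : Fin 4} {z : ℂ} (hz : yz z ∈ RY c) :
    kF (adm Ar Qr (glc c 0 (tz c z))) (BR c 6 6) (BR c 6 7) ≠ 0 := by
  obtain ⟨h1, h2⟩ := tz_of_RY hz
  exact kF_ne bch_r (fit_BR c) (norm_tz_lt h1) fun _ => h2

/-- **cell to disc**, any cusp, from the constant relation -/
theorem cusp_up (hX : YD X) {c : Fin 4} {z : ℂ} (hz : yz z ∈ RY c)
    {B M : Matrix (Fin 8) (Fin 8) ℂ} (hk : kap X B z ≠ 0)
    (hR : Rel B (EP c (TY c (yz z))) (BR c) M) {b b' : Fin 8} (h : Zr M (BR c) b b') :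
    TopN.tr (frm (Pz X z) B) (Dz c z) b b' = 0 :=
  trans_zero (adap_adm bch_r (bup_glc c 0 _)) (cst_BR c) hR (Pz_over hX c hz) hk (disc_kF hz) h

/-- **disc to cell**, any cusp, from the constant relation -/
theorem cusp_dn (hX : YD X) {c : Fin 4} {z : ℂ} (hz : yz z ∈ RY c)
    {B M : Matrix (Fin 8) (Fin 8) ℂ} (hB : Cst B) (hk : kap X B z ≠ 0)
    (hR : Rel (BR c) (EP c (-TY c (yz z))) B M) {b b' : Fin 8} (h : Zr M B b b') :
    TopN.tr (Dz c z) (frm (Pz X z) B) b b' = 0 :=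
  trans_zero (Pz_adap hX (RY_sub hz)) hB hR (over_Pz hX c hz) (disc_kF hz) hk h

theorem det_frm_Pz (hX : YD X) {z : ℂ} (hz : z ∈ OmP) {B : Matrix (Fin 8) (Fin 8) ℂ}
    (hB : Cst B) : IsUnit (frm (Pz X z) B).det := by
  rw [det_frm (Pz_adap hX hz) hB]
  exact isUnit_one

/-- **mirror cell to disc** -/
theorem cusp_up' (hX : YD X) {c : Fin 4} {z : ℂ} (hz : yz (conj z) ∈ RY c)
    {B M : Matrix (Fin 8) (Fin 8) ℂ} (hk : kap X B (conj z) ≠ 0)
    (hR : Rel B (EP c (TY c (yz (conj z)))) (BR c) M) {b b' : Fin 8} (h : Zr M (BR c) b b') :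
    TopN.tr ((frm (Pz X (conj z)) B).map conj) (Dz c z) b b' = 0 := by
  rw [tr_mirror, cusp_up hX hz hk hR h, map_zero]

/-- **disc to mirror cell** -/
theorem cusp_dn' (hX : YD X) {c : Fin 4} {z : ℂ} (hz : yz (conj z) ∈ RY c)
    {B M : Matrix (Fin 8) (Fin 8) ℂ} (hB : Cst B) (hk : kap X B (conj z) ≠ 0)
    (hR : Rel (BR c) (EP c (-TY c (yz (conj z)))) B M) {b b' : Fin 8} (h : Zr M B b b') :
    TopN.tr (Dz c z) ((frm (Pz X (conj z)) B).map conj) b b' = 0 := by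
  rw [tr_mirror' (det_frm_Pz hX (RY_sub hz) hB), cusp_dn hX hz hB hk hR h, map_zero]

/-! ### the region near a point of a cusp circle -/

theorem isOpen_RY (c : Fin 4) : IsOpen (RY c) := by
  have hre : Continuous fun y : ℂ => y.re := Complex.continuous_re
  have him : Continuous fun y : ℂ => y.im := Complex.continuous_im
  fin_cases c
  · exact (isOpen_lt hre continuous_const).inter
      ((isOpen_lt him continuous_const).union (isOpen_ne_fun hre continuous_const))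
  · exact (isOpen_lt continuous_norm continuous_const).inter
      ((isOpen_lt him continuous_const).union (isOpen_ne_fun hre continuous_const))
  · exact (isOpen_lt continuous_const hre).inter
      ((isOpen_lt him continuous_const).union (isOpen_ne_fun hre continuous_const))
  · exact (isOpen_lt continuous_const continuous_norm).inter
      ((isOpen_lt him continuous_const).union (isOpen_lt continuous_const hre.abs))

theorem eventually_RY {c : Fin 4} {z : ℂ} (hz : yz z ∈ RY c) : ∀ᶠ z' in 𝓝 z, yz z' ∈ RY c :=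
  cont_yz.continuousAt.eventually ((isOpen_RY c).mem_nhds hz)

theorem eventually_RY' {c : Fin 4} {z : ℂ} (hz : yz (conj z) ∈ RY c) :
    ∀ᶠ z' in 𝓝 z, yz (conj z') ∈ RY c :=
  (cont_yz.comp Complex.continuous_conj).continuousAt.eventually ((isOpen_RY c).mem_nhds hz)

/-- the points of the cusp circles in the closed upper half plane -/
theorem circle_RY {c : Fin 4} {r : ℝ} (hr : 0 < r) (h1 : c ≠ 3 → r < 1 / 2) (h3 : c = 3 → 1 < r)
    {z : ℂ} (hz : ‖z - AR.cen c‖ = r) (him : 0 ≤ z.im) : yz z ∈ RY c := by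
  have key : ∀ a : ℝ, z.im = 0 → |z.re - a| = ‖z - a‖ := by
    intro a h
    have : z - a = ((z.re - a : ℝ) : ℂ) := by
      apply Complex.ext <;> simp [h]
    rw [this, Complex.norm_real, Real.norm_eq_abs]
  have hneg : ∀ {p : Prop}, (z.im = 0 → p) → (yz z).im < 0 ∨ p := by
    intro p hp
    rcases him.eq_or_lt with h | h
    · exact Or.inr (hp h.symm)
    · left; rw [yz_im]; linarith
  fin_cases c
  · have hz' : ‖z - 1‖ = r := hz
    have h2 := (Complex.abs_re_le_norm (z - 1)).trans hz'.le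
    rw [abs_le, Complex.sub_re, Complex.one_re] at h2
    have h4 := h1 (by decide)
    refine ⟨by rw [yz_re]; linarith [h2.1], hneg fun h0 => ?_⟩
    have h5 := key 1 h0
    rw [Complex.ofReal_one, hz'] at h5
    rw [yz_re]
    intro h6
    have h7 : z.re - 1 = 0 := by linarith
    rw [h7, abs_zero] at h5
    exact hr.ne h5
  · have hz' : ‖z - 1 / 2‖ = r := hz
    have h4 := h1 (by decide)
    refine ⟨by rw [yz_norm, hz']; linarith, hneg fun h0 => ?_⟩
    have h5 := key (1 / 2) h0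
    have e : ((1 / 2 : ℝ) : ℂ) = 1 / 2 := by norm_num
    rw [e, hz'] at h5
    rw [yz_re]
    intro h6
    have h7 : z.re - 1 / 2 = 0 := by linarith
    rw [h7, abs_zero] at h5
    exact hr.ne h5
  · have hz' : ‖z - 0‖ = r := hz
    have h2 := (Complex.abs_re_le_norm (z - 0)).trans hz'.le
    rw [abs_le, sub_zero] at h2
    have h4 := h1 (by decide)
    refine ⟨by rw [yz_re]; linarith [h2.2], hneg fun h0 => ?_⟩
    have h5 := key 0 h0
    rw [Complex.ofReal_zero, hz'] at h5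
    rw [yz_re]
    intro h6
    have h7 : z.re - 0 = 0 := by linarith
    rw [h7, abs_zero] at h5
    exact hr.ne h5
  · have hz' : ‖z - 1 / 2‖ = r := hz
    have h4 := h3 rfl
    refine ⟨by rw [yz_norm, hz']; linarith, hneg fun h0 => ?_⟩
    have h5 := key (1 / 2) h0
    have e : ((1 / 2 : ℝ) : ℂ) = 1 / 2 := by norm_num
    rw [e, hz'] at h5
    have h6 : (yz z).re = -(2 * (z.re - 1 / 2)) := by rw [yz_re]; ring
    rw [h6, abs_neg, abs_mul, h5, abs_of_pos two_pos]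
    linarith

/-! ### the cusp `c3` -/

theorem BD3_eq : BD3 = BR 3 := rfl

theorem LA3_eq (T : ℂ) : LA3 T = EP 3 T := rfl

/-- **`c3`, cell `F9` to the disc** -/
theorem up3 (hX : YD X) {z : ℂ} (hz : yz z ∈ RY 3) (hk : kap X BF9 z ≠ 0) {b b' : Fin 8}
    (hb : b ≠ b') (h : (b, b') ∉ pat3) : TopN.tr (frm (Pz X z) BF9) (Dz 3 z) b b' = 0 :=
  cusp_up hX hz hk (rel_up3 _) (zr_up3 _ hb fun h1 => h (patU3_sub h1))

/-- **`c3`, disc to the cell `F9`** -/
theorem dn3 (hX : YD X) {z : ℂ} (hz : yz z ∈ RY 3) (hk : kap X BF9 z ≠ 0) {b b' : Fin 8}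
    (hb : b ≠ b') (h : (b, b') ∉ pat3) : TopN.tr (Dz 3 z) (frm (Pz X z) BF9) b b' = 0 :=
  cusp_dn hX hz cst_BF9 hk (rel_dn3 _) (zr_dn3 _ hb h)

/-- **`c3`, mirror cell to the disc** -/
theorem up3' (hX : YD X) {z : ℂ} (hz : yz (conj z) ∈ RY 3) (hk : kap X BF9 (conj z) ≠ 0)
    {b b' : Fin 8} (hb : b ≠ b') (h : (b, b') ∉ pat3) :
    TopN.tr ((frm (Pz X (conj z)) BF9).map conj) (Dz 3 z) b b' = 0 :=
  cusp_up' hX hz hk (rel_up3 _) (zr_up3 _ hb fun h1 => h (patU3_sub h1))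

/-- **`c3`, disc to the mirror cell** -/
theorem dn3' (hX : YD X) {z : ℂ} (hz : yz (conj z) ∈ RY 3) (hk : kap X BF9 (conj z) ≠ 0)
    {b b' : Fin 8} (hb : b ≠ b') (h : (b, b') ∉ pat3) :
    TopN.tr (Dz 3 z) ((frm (Pz X (conj z)) BF9).map conj) b b' = 0 :=
  cusp_dn' hX hz cst_BF9 hk (rel_dn3 _) (zr_dn3 _ hb h)

end

end Vale.Agent.P030.H782
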