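import Mathlib

/-!
# P030, NV: the determinant lemmas of the G-argument
-/

open Polynomial

namespace Vale.Agent.P030.H782

open scoped PowerSeries in
/-- If the values of the matrix `q` on `r`-vectors of power series with independent constant terms
are divisible by `t^(N g)`, then `det q` is divisible by `t^(∑ N g)`. -/
theorem X_pow_dvd_det {r : ℕ} {ι : Type*} [Fintype ι] [DecidableEq ι]
    (q : Matrix (Fin r) (Fin r) ℚ⟦X⟧) (Φ : ι → Fin r → ℚ⟦X⟧) (N : ι → ℕ)
    (hi : LinearIndependent ℚ fun g => fun m => PowerSeries.constantCoeff (Φ g m))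
    (hd : ∀ i g, PowerSeries.X ^ N g ∣ ∑ m, q i m * Φ g m) :
    PowerSeries.X ^ (∑ g, N g) ∣ q.det := by
  classical
  set b := Module.Basis.sumExtend hi with hb
  have hfin : Finite (ι ⊕ Module.Basis.sumExtendIndex hi) :=
    Module.Finite.finite_basis b
  have hfin2 : Finite (Module.Basis.sumExtendIndex hi) :=
    Finite.of_injective (Sum.inr : _ → ι ⊕ Module.Basis.sumExtendIndex hi) Sum.inr_injective
  let _ : Fintype (Module.Basis.sumExtendIndex hi) := Fintype.ofFinite _
  have hcard : Fintype.card (ι ⊕ Module.Basis.sumExtendIndex hi) = Fintype.card (Fin r) := by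
    rw [← Module.finrank_eq_card_basis b]; simp
  let e : (ι ⊕ Module.Basis.sumExtendIndex hi) ≃ Fin r :=
    (Fintype.equivOfCardEq hcard)
  let Γ : Matrix (Fin r) (Fin r) ℚ⟦X⟧ := Matrix.of fun m k =>
    Sum.elim (fun g => Φ g m) (fun l => PowerSeries.C (b (Sum.inr l) m)) (e.symm k)
  have hb1 : ∀ g, b (Sum.inl g) = fun m => PowerSeries.constantCoeff (Φ g m) := by
    intro g
    rw [hb]
    simp only [Module.Basis.sumExtend, Module.Basis.coe_reindex, Module.Basis.coe_extend,
      Function.comp_apply]
    rfl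
  have hΓ : PowerSeries.constantCoeff Γ.det ≠ 0 := by
    rw [RingHom.map_det]
    have h1 : PowerSeries.constantCoeff.mapMatrix Γ
        = Matrix.transpose (Matrix.of fun k : Fin r => b (e.symm k)) := by
      ext m k
      simp only [RingHom.mapMatrix_apply, Matrix.map_apply, Γ, Matrix.of_apply,
        Matrix.transpose_apply]
      rcases h : e.symm k with g | l
      · simp [hb1]
      · simp
    rw [h1, Matrix.det_transpose]
    have h2 : LinearIndependent ℚ (Matrix.of fun k : Fin r => b (e.symm k)).row := by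
      have := b.linearIndependent.comp e.symm e.symm.injective
      exact this
    intro h0
    have h3 := (Matrix.linearIndependent_rows_iff_isUnit).1 h2
    rw [Matrix.isUnit_iff_isUnit_det, h0] at h3
    exact not_isUnit_zero h3
  have hunit : IsUnit Γ.det := by
    rw [PowerSeries.isUnit_iff_constantCoeff]
    exact isUnit_iff_ne_zero.2 hΓ
  have hcol : ∀ i k, PowerSeries.X ^ (Sum.elim N (fun _ => 0) (e.symm k)) ∣ (q * Γ) i k := by
    intro i k
    rcases h : e.symm k with g | l
    · simp only [Sum.elim_inl, Matrix.mul_apply, Γ, Matrix.of_apply, h]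
      exact hd i g
    · simp
  choose M hM using hcol
  have h4 : q * Γ = Matrix.of fun i k =>
      (PowerSeries.X ^ (Sum.elim N (fun _ => 0) (e.symm k)) : ℚ⟦X⟧) * M i k := by
    ext1 i k; rw [hM]; rfl
  have h5 : (q * Γ).det = (∏ k, (PowerSeries.X ^ (Sum.elim N (fun _ => 0) (e.symm k)) : ℚ⟦X⟧))
      * (Matrix.of M).det := by
    rw [h4]; exact Matrix.det_mul_row _ _
  have h6 : (∏ k, (PowerSeries.X ^ (Sum.elim N (fun _ => 0) (e.symm k)) : ℚ⟦X⟧))
      = PowerSeries.X ^ (∑ g, N g) := by
    rw [Finset.prod_pow_eq_pow_sum]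
    congr 1
    rw [Equiv.sum_comp e.symm (Sum.elim N (fun _ => 0)), Fintype.sum_sum_type]
    simp
  rw [h6, Matrix.det_mul] at h5
  exact (hunit.dvd_mul_right).1 (Dvd.intro _ h5.symm)

/-- substitution of a power series into a polynomial -/
noncomputable def em (U : PowerSeries ℚ) : ℚ[X] →+* PowerSeries ℚ :=
  Polynomial.eval₂RingHom PowerSeries.C U

theorem em_C (U : PowerSeries ℚ) (a : ℚ) : em U (C a) = PowerSeries.C a := by simp [em]
theorem em_X (U : PowerSeries ℚ) : em U X = U := by simp [em]

theorem constantCoeff_em (U : PowerSeries ℚ) (p : ℚ[X]) :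
    PowerSeries.constantCoeff (em U p) = p.eval (PowerSeries.constantCoeff U) := by
  have : (PowerSeries.constantCoeff).comp (em U)
      = Polynomial.evalRingHom (PowerSeries.constantCoeff U) := by
    apply Polynomial.ringHom_ext
    · intro a; simp [em]
    · simp [em]
  exact DFunLike.congr_fun this p

/-- a divisibility of `G(u_c(t))` by a power of `t` is a divisibility of `G` -/
theorem pow_dvd_of_em {U V : PowerSeries ℚ} {c : ℚ} (hU : U - PowerSeries.C c = PowerSeries.X * V)
    (hV : PowerSeries.constantCoeff V ≠ 0) {G : ℚ[X]} (hG : G ≠ 0) {M : ℕ}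
    (h : PowerSeries.X ^ M ∣ em U G) : (X - C c) ^ M ∣ G := by
  obtain ⟨H, hH, hnd⟩ := exists_eq_pow_rootMultiplicity_mul_and_not_dvd G hG c
  set a := G.rootMultiplicity c with ha
  have hHc : H.eval c ≠ 0 := fun h0 => hnd (dvd_iff_isRoot.mpr h0)
  have hUc : PowerSeries.constantCoeff U = c := by
    have := congrArg PowerSeries.constantCoeff hU
    simp at this
    linarith
  have e1 : em U G = PowerSeries.X ^ a * (V ^ a * em U H) := by
    conv_lhs => rw [hH]
    rw [map_mul, map_pow, map_sub, em_X, em_C, hU, mul_pow, mul_assoc]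
  have hu : IsUnit (V ^ a * em U H) := by
    rw [PowerSeries.isUnit_iff_constantCoeff, isUnit_iff_ne_zero, map_mul, map_pow,
      constantCoeff_em, hUc]
    exact mul_ne_zero (pow_ne_zero _ hV) hHc
  rw [e1, hu.dvd_mul_right] at h
  have hMa : M ≤ a := by
    by_contra hlt
    push Not at hlt
    have h1 := PowerSeries.X_pow_dvd_iff.1 h a hlt
    simp [PowerSeries.coeff_X_pow] at h1
  rw [hH]
  exact Dvd.dvd.mul_right (pow_dvd_pow _ hMa) _

/-- the determinant of reversed polynomials -/
theorem reflect_prod {ι : Type*} (s : Finset ι) (f : ι → ℚ[X]) (d : ι → ℕ)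
    (h : ∀ i ∈ s, (f i).natDegree ≤ d i) :
    reflect (∑ i ∈ s, d i) (∏ i ∈ s, f i) = ∏ i ∈ s, reflect (d i) (f i) ∧
      (∏ i ∈ s, f i).natDegree ≤ ∑ i ∈ s, d i := by
  classical
  induction s using Finset.induction_on with
  | empty => simp
  | insert a s ha ih =>
    obtain ⟨h1, h2⟩ := ih (fun i hi => h i (Finset.mem_insert_of_mem hi))
    have h3 := h a (Finset.mem_insert_self _ _)
    rw [Finset.prod_insert ha, Finset.prod_insert ha, Finset.sum_insert ha]
    constructor
    · rw [reflect_mul _ _ h3 h2, h1]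
    · exact le_trans natDegree_mul_le (add_le_add h3 h2)

theorem reflect_det {r : ℕ} (q : Matrix (Fin r) (Fin r) ℚ[X]) (d : Fin r → ℕ)
    (h : ∀ i m, (q i m).natDegree ≤ d i) :
    (Matrix.of fun i m => reflect (d i) (q i m)).det = reflect (∑ i, d i) q.det ∧
      q.det.natDegree ≤ ∑ i, d i := by
  classical
  constructor
  · rw [← Matrix.det_transpose, Matrix.det_apply, ← Matrix.det_transpose q, Matrix.det_apply]
    rw [show reflect (∑ i, d i) (∑ σ : Equiv.Perm (Fin r), Equiv.Perm.sign σ •
        ∏ i, q.transpose (σ i) i) = ∑ σ : Equiv.Perm (Fin r), reflect (∑ i, d i)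
        (Equiv.Perm.sign σ • ∏ i, q.transpose (σ i) i) from ?_]
    · refine Finset.sum_congr rfl fun σ _ => ?_
      have h1 := (reflect_prod Finset.univ (fun i => q i (σ i)) d (fun i _ => h i _)).1
      simp only [Matrix.transpose_apply, Matrix.of_apply]
      rcases Int.units_eq_one_or (Equiv.Perm.sign σ) with hs | hs
      · rw [hs, one_smul, one_smul, h1]
      · rw [hs, Units.neg_smul, Units.neg_smul, one_smul, one_smul, reflect_neg, h1]
    · induction (Finset.univ : Finset (Equiv.Perm (Fin r))) using Finset.induction_on with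
      | empty => simp
      | insert a s ha ih => rw [Finset.sum_insert ha, Finset.sum_insert ha, reflect_add, ih]
  · rw [← Matrix.det_transpose, Matrix.det_apply]
    refine natDegree_sum_le_of_forall_le _ _ fun σ _ => ?_
    have h1 := (reflect_prod Finset.univ (fun i => q i (σ i)) d (fun i _ => h i _)).2
    simp only [Matrix.transpose_apply]
    rcases Int.units_eq_one_or (Equiv.Perm.sign σ) with hs | hs
    · rw [hs, one_smul]; exact h1
    · rw [hs, Units.neg_smul, one_smul, natDegree_neg]; exact h1

/-- divisibility of the reversed polynomial bounds the degree -/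
theorem natDegree_of_dvd_reflect {G : ℚ[X]} {d M : ℕ} (hG : G ≠ 0) (hd : G.natDegree ≤ d)
    (h : PowerSeries.X ^ M ∣ (reflect d G : PowerSeries ℚ)) : G.natDegree + M ≤ d := by
  by_contra hlt
  push Not at hlt
  have h1 := PowerSeries.X_pow_dvd_iff.1 h (d - G.natDegree) (by omega)
  rw [Polynomial.coeff_coe, coeff_reflect, revAt_le (by omega),
    show d - (d - G.natDegree) = G.natDegree by omega] at h1
  exact hG (leadingCoeff_eq_zero.1 h1)

end Vale.Agent.P030.H782
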