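import Vale.Agent.P030.H782.Det
import Vale.Agent.P030.H782.Iface

/-!
# P030, NV: values of flat functionals on iterates of the connection
-/

open Polynomial

namespace Vale.Agent.P030.H782

open Vale.Agent.P030.T

set_option linter.unusedSimpArgs false

/-- power series over `ℚ` -/
abbrev PS : Type := PowerSeries ℚ

/-- the local parameter `t` -/
noncomputable abbrev tt : PS := PowerSeries.X

theorem th_em (U : PS) (p : ℚ[X]) :
    T.th (em U p) = em U (derivative p) * T.th U := by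
  induction p using Polynomial.induction_on with
  | C a => rw [em_C, th_C, derivative_C, map_zero, zero_mul]
  | add p q hp hq => rw [map_add, th_add, hp, hq, derivative_add, map_add]; ring
  | monomial n a ih =>
    have h : derivative (C a * X ^ n * X) = derivative (C a * X ^ n) * X + C a * X ^ n := by
      rw [derivative_mul, derivative_X, mul_one]
    have h2 : em U (derivative (C a * X ^ n) * X) = em U (derivative (C a * X ^ n)) * U := by
      rw [RingHom.map_mul, em_X]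
    rw [pow_succ, ← mul_assoc, h, RingHom.map_mul, th_mul, ih, RingHom.map_add, h2, em_X]
    ring

/-- value of the tuple `Φ` on the coefficient vector `Q` at the point `U` -/
noncomputable def ev (U : PS) (Q : Fin 8 → ℚ[X]) (Φ : Fin 8 → PS) : PS :=
  ∑ j, em U (Q j) * Φ j

theorem geo_mul' : (1 - tt) * geo = 1 := geo_mul

theorem th_geo : T.th geo = tt * geo ^ 2 := by
  have h : T.th ((1 - tt) * geo) = T.th 1 := by rw [geo_mul']
  rw [th_mul, th_sub, th_one, th_X] at h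
  linear_combination geo * h - T.th geo * geo_mul'

theorem one_sub_ne : (1 - tt) ≠ 0 := by
  intro h
  have := geo_mul'
  rw [h, zero_mul] at this
  exact zero_ne_one this

theorem four_c : (4 : PS) * PowerSeries.C (1 / 8) = PowerSeries.C (1 / 2) := half_eq.symm
theorem two_c : (2 : PS) * PowerSeries.C (1 / 8) = PowerSeries.C (1 / 4) := quart_eq.symm

theorem em_half (U : PS) : em U (C (1 / 2)) = 4 * PowerSeries.C (1 / 8) := by
  rw [em_C, half_eq]
theorem em_quart (U : PS) : em U (C (1 / 4)) = 2 * PowerSeries.C (1 / 8) := by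
  rw [em_C, quart_eq]

/-- the general computation at a finite cusp -/
theorem ev_NTt {U S : PS} {Φ Ψ : Fin 8 → PS} (hS : S * T.th U = U * (U + 1) * (U - 1))
    (d0 : S * (T.th (Φ 0) + Ψ 0) = 0) (d1 : S * (T.th (Φ 1) + Ψ 1) = 0)
    (d2 : S * (T.th (Φ 2) + Ψ 2) = -(U * (U + 1)) * Φ 0)
    (d3 : S * (T.th (Φ 3) + Ψ 3) = (U ^ 2 - 1) * Φ 2)
    (d4 : S * (T.th (Φ 4) + Ψ 4) = 4 * PowerSeries.C (1 / 8) * U * (U - 3) * Φ 1
      + U * (U - 1) * Φ 2)
    (d5 : S * (T.th (Φ 5) + Ψ 5) = -(4 * PowerSeries.C (1 / 8) * U * (U + 1)) * Φ 1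
      - U * (U + 1) * Φ 2)
    (d6 : S * (T.th (Φ 6) + Ψ 6) = U * (U + 1) * Φ 6 + (U ^ 2 - 1) * Φ 7)
    (d7 : S * (T.th (Φ 7) + Ψ 7) = 2 * PowerSeries.C (1 / 8) * U * Φ 0 - U ^ 2 * Φ 6
      + (U - U ^ 2) * Φ 7) (Q : Fin 8 → ℚ[X]) :
    ev U (NTt Q) Φ = S * (T.th (ev U Q Φ) + ev U Q Ψ) := by
  have hth : ∀ (f : Fin 8 → PS), T.th (∑ j, f j) = ∑ j, T.th (f j) := by
    intro f
    simp only [Fin.sum_univ_eight, th_add]
  simp only [ev]
  rw [hth]
  simp only [th_mul, th_em, Fin.sum_univ_eight, NTt, Matrix.cons_val, map_add, map_sub, map_mul,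
    map_neg, map_pow, map_one, map_zero, map_ofNat, em_X, em_half, em_quart, add_zero]
  linear_combination
    (-(em U (derivative (Q 0)) * Φ 0 + em U (derivative (Q 1)) * Φ 1
      + em U (derivative (Q 2)) * Φ 2 + em U (derivative (Q 3)) * Φ 3
      + em U (derivative (Q 4)) * Φ 4 + em U (derivative (Q 5)) * Φ 5
      + em U (derivative (Q 6)) * Φ 6 + em U (derivative (Q 7)) * Φ 7)) * hS
    - em U (Q 0) * d0 - em U (Q 1) * d1 - em U (Q 2) * d2 - em U (Q 3) * d3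
    - em U (Q 4) * d4 - em U (Q 5) * d5 - em U (Q 6) * d6 - em U (Q 7) * d7

theorem ev_NTt0 {Φ Ψ : Fin 8 → PS} (h : Fl0 Φ Ψ) (Q : Fin 8 → ℚ[X]) :
    ev tt (NTt Q) Φ = (tt ^ 2 - 1) * (T.th (ev tt Q Φ) + ev tt Q Ψ) := by
  obtain ⟨e0, e1, e2, e3, e4, e5, e6, e7⟩ := h
  rw [half_eq] at e4 e5
  rw [quart_eq] at e7
  apply ev_NTt
  · rw [th_X]; ring
  · rw [e0, mul_zero]
  · rw [e1, mul_zero]
  · linear_combination -(1 + tt) * e2
  · linear_combination (tt ^ 2 - 1) * e3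
  · linear_combination -e4 + tt * (1 - tt) * Φ 1 * eighth
  · linear_combination -(1 + tt) * e5
  · linear_combination -(1 + tt) * e6
  · linear_combination -e7

theorem ev_NTt1 {Φ Ψ : Fin 8 → PS} (h : Fl1 Φ Ψ) (Q : Fin 8 → ℚ[X]) :
    ev (1 - 2 * geo) (NTt Q) Φ
      = (4 * geo - 2) * (T.th (ev (1 - 2 * geo) Q Φ) + ev (1 - 2 * geo) Q Ψ) := by
  obtain ⟨e0, e1, e2, e3, e4, e5, e6, e7⟩ := h
  rw [half_eq] at e4 e5 e7
  have hg := geo_mul'
  have f2 : T.th (Φ 2) + Ψ 2 = (1 - geo) * Φ 0 := by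
    apply mul_left_cancel₀ one_sub_ne
    linear_combination e2 + Φ 0 * hg
  have f3 : (1 + tt) * (T.th (Φ 3) + Ψ 3) = 2 * (geo - 1) * Φ 2 := by
    apply mul_left_cancel₀ one_sub_ne
    linear_combination e3 - 2 * Φ 2 * hg
  have f4 : T.th (Φ 4) + Ψ 4 = -(4 * PowerSeries.C (1 / 8)) * (geo - 1) * Φ 1
      + geo * (Φ 2 + Φ 1) := by
    apply mul_left_cancel₀ one_sub_ne
    linear_combination e4 + (4 * PowerSeries.C (1 / 8) * Φ 1 - (Φ 2 + Φ 1)) * hg
  have f5 : T.th (Φ 5) + Ψ 5 = -(geo - 1) * (4 * PowerSeries.C (1 / 8) * Φ 1 + Φ 2) := by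
    apply mul_left_cancel₀ one_sub_ne
    linear_combination e5 + (4 * PowerSeries.C (1 / 8) * Φ 1 + Φ 2) * hg
  have f6 : (1 + tt) * (T.th (Φ 6) + Ψ 6) = (geo - 1) * (1 + tt) * Φ 6
      + 2 * (geo - 1) * Φ 7 := by
    apply mul_left_cancel₀ one_sub_ne
    linear_combination e6 - ((1 + tt) * Φ 6 + 2 * Φ 7) * hg
  have f7 : T.th (Φ 7) + Ψ 7 = -geo * Φ 7 - 4 * PowerSeries.C (1 / 8) * (2 * geo - 1) * Φ 6
      - PowerSeries.C (1 / 8) * Φ 0 := by
    apply mul_left_cancel₀ one_sub_ne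
    linear_combination e7 + (Φ 7 + 8 * PowerSeries.C (1 / 8) * Φ 6) * hg
  apply ev_NTt
  · rw [th_sub, th_one, th_mul, th_two, th_geo]
    linear_combination (8 * geo ^ 2 - 4 * geo) * hg
  · rw [e0, mul_zero]
  · rw [e1, mul_zero]
  · linear_combination (4 * geo - 2) * f2
  · linear_combination 2 * geo * f3 + (T.th (Φ 3) + Ψ 3) * 2 * hg
  · linear_combination (4 * geo - 2) * f4
      + (4 * geo - 2) * geo * Φ 1 * (-1) * eighth
  · linear_combination (4 * geo - 2) * f5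
  · linear_combination 2 * geo * f6 + (T.th (Φ 6) + Ψ 6) * 2 * hg + (2 - 2 * geo) * Φ 6 * hg
  · linear_combination (4 * geo - 2) * f7 - (2 * geo - 1) ^ 2 * Φ 6 * eighth

theorem ev_NTt3 {Φ Ψ : Fin 8 → PS} (h : Fl3 Φ Ψ) (Q : Fin 8 → ℚ[X]) :
    ev (2 * geo - 1) (NTt Q) Φ
      = (4 * geo - 2) * (T.th (ev (2 * geo - 1) Q Φ) + ev (2 * geo - 1) Q Ψ) := by
  obtain ⟨e0, e1, e2, e3, e4, e5, e6, e7⟩ := h
  rw [half_eq] at e4 e5 e7
  have hg := geo_mul'
  have f2 : T.th (Φ 2) + Ψ 2 = -geo * Φ 0 := by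
    apply mul_left_cancel₀ one_sub_ne
    linear_combination e2 + Φ 0 * hg
  have f3 : (1 + tt) * (T.th (Φ 3) + Ψ 3) = 2 * (geo - 1) * Φ 2 := by
    apply mul_left_cancel₀ one_sub_ne
    linear_combination e3 - 2 * Φ 2 * hg
  have f4 : T.th (Φ 4) + Ψ 4 = -(4 * PowerSeries.C (1 / 8)) * geo * Φ 1
      + (geo - 1) * (Φ 2 + Φ 1) := by
    apply mul_left_cancel₀ one_sub_ne
    linear_combination e4 + (4 * PowerSeries.C (1 / 8) * Φ 1 - (Φ 2 + Φ 1)) * hg
  have f5 : T.th (Φ 5) + Ψ 5 = -geo * (4 * PowerSeries.C (1 / 8) * Φ 1 + Φ 2) := by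
    apply mul_left_cancel₀ one_sub_ne
    linear_combination e5 + (4 * PowerSeries.C (1 / 8) * Φ 1 + Φ 2) * hg
  have f6 : (1 + tt) * (T.th (Φ 6) + Ψ 6) = geo * (1 + tt) * Φ 6
      + 2 * (geo - 1) * Φ 7 := by
    apply mul_left_cancel₀ one_sub_ne
    linear_combination e6 - ((1 + tt) * Φ 6 + 2 * Φ 7) * hg
  have f7 : T.th (Φ 7) + Ψ 7 = -(geo - 1) * Φ 7 - 4 * PowerSeries.C (1 / 8) * (2 * geo - 1) * Φ 6
      + PowerSeries.C (1 / 8) * Φ 0 := by
    apply mul_left_cancel₀ one_sub_ne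
    linear_combination e7 + (Φ 7 + 8 * PowerSeries.C (1 / 8) * Φ 6) * hg
  apply ev_NTt
  · rw [th_sub, th_one, th_mul, th_two, th_geo]
    linear_combination (4 * geo - 8 * geo ^ 2) * hg
  · rw [e0, mul_zero]
  · rw [e1, mul_zero]
  · linear_combination (4 * geo - 2) * f2
  · linear_combination 2 * geo * f3 + (T.th (Φ 3) + Ψ 3) * 2 * hg
  · linear_combination (4 * geo - 2) * f4
      + (4 * geo - 2) * (1 - geo) * Φ 1 * eighth
  · linear_combination (4 * geo - 2) * f5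
  · linear_combination 2 * geo * f6 + (T.th (Φ 6) + Ψ 6) * 2 * hg - (2 * geo) * Φ 6 * hg
  · linear_combination (4 * geo - 2) * f7 - (2 * geo - 1) ^ 2 * Φ 6 * eighth

/-! ### the cusp at infinity -/

/-- reversed polynomial as a power series -/
noncomputable def rv (d : ℕ) (p : ℚ[X]) : PS := (reflect d p : ℚ[X])

theorem rv_add (d : ℕ) (p q : ℚ[X]) : rv d (p + q) = rv d p + rv d q := by
  rw [rv, rv, rv, reflect_add, Polynomial.coe_add]

theorem rv_mul {d e : ℕ} {p q : ℚ[X]} (hp : p.natDegree ≤ d) (hq : q.natDegree ≤ e) :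
    rv (d + e) (p * q) = rv d p * rv e q := by
  rw [rv, rv, rv, reflect_mul _ _ hp hq, Polynomial.coe_mul]

theorem rv_monomial {d n : ℕ} (h : n ≤ d) (a : ℚ) :
    rv d (C a * X ^ n) = PowerSeries.C a * tt ^ (d - n) := by
  rw [rv, reflect_C_mul_X_pow, revAt_le h]
  simp

/-- reversal of a quadratic polynomial -/
theorem rv_quad (a b c : ℚ) : rv 2 (C a + C b * X + C c * X ^ 2)
    = PowerSeries.C c + PowerSeries.C b * tt + PowerSeries.C a * tt ^ 2 := by
  have h0 : (C a : ℚ[X]) = C a * X ^ 0 := by simp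
  have h1 : (C b * X : ℚ[X]) = C b * X ^ 1 := by simp
  rw [rv_add, rv_add, h0, h1, rv_monomial (by norm_num), rv_monomial (by norm_num),
    rv_monomial (by norm_num)]
  simp
  ring

theorem natDegree_quad (a b c : ℚ) : (C a + C b * X + C c * X ^ 2 : ℚ[X]).natDegree ≤ 2 := by
  compute_degree

theorem rv_quad_mul (a b c : ℚ) {d : ℕ} {p : ℚ[X]} (hp : p.natDegree ≤ d) :
    rv (d + 2) ((C a + C b * X + C c * X ^ 2) * p)
      = (PowerSeries.C c + PowerSeries.C b * tt + PowerSeries.C a * tt ^ 2) * rv d p := by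
  rw [add_comm d 2, rv_mul (natDegree_quad a b c) hp, rv_quad]

/-- the derivation at infinity -/
theorem rv_der {d : ℕ} {p : ℚ[X]} (hp : p.natDegree ≤ d) :
    rv (d + 2) (X * (X + 1) * (X - 1) * derivative p)
      = (1 - tt ^ 2) * ((d : PS) * rv d p - T.th (rv d p)) := by
  refine Polynomial.induction_with_natDegree_le
    (fun p => rv (d + 2) (X * (X + 1) * (X - 1) * derivative p)
      = (1 - tt ^ 2) * ((d : PS) * rv d p - T.th (rv d p))) d ?_ ?_ ?_ p hp
  · simp [rv, th_zero]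
  · intro n a _ hn
    have h1 : X * (X + 1) * (X - 1) * derivative (C a * X ^ n : ℚ[X])
        = C (a * n) * X ^ (n + 2) + C (-(a * n)) * X ^ n := by
      rcases n with _ | n
      · simp
      · rw [derivative_C_mul_X_pow]
        simp only [map_mul, map_neg, map_natCast, Nat.add_sub_cancel]
        ring
    rw [h1, rv_add, rv_monomial (by omega), rv_monomial (by omega), rv_monomial hn,
      show d + 2 - (n + 2) = d - n by omega, show d + 2 - n = d - n + 2 by omega]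
    have h2 : T.th (PowerSeries.C a * tt ^ (d - n)) = ((d - n : ℕ) : PS)
        * (PowerSeries.C a * tt ^ (d - n)) := by
      ext k
      rw [coeff_th]
      have h3 : ((d - n : ℕ) : PS) = PowerSeries.C ((d - n : ℕ) : ℚ) := by simp
      rw [h3, PowerSeries.coeff_C_mul, PowerSeries.coeff_C_mul, PowerSeries.coeff_C_mul,
        PowerSeries.coeff_X_pow]
      split_ifs with hk
      · rw [hk]
      · simp
    rw [h2]
    have h4 : (d : PS) = ((d - n : ℕ) : PS) + (n : PS) := by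
      rw [← Nat.cast_add]; congr 1; omega
    rw [h4]
    simp only [map_mul, map_neg, map_natCast]
    ring
  · intro f g _ _ hf hg
    rw [derivative_add, mul_add, rv_add, hf, hg, rv_add, th_add]
    ring

/-- value at infinity -/
noncomputable def ev2 (d : ℕ) (Q : Fin 8 → ℚ[X]) (Φ : Fin 8 → PS) : PS :=
  ∑ j, rv d (Q j) * Φ j

theorem psC_neg_one : PowerSeries.C (-1 : ℚ) = -1 := by rw [map_neg, map_one]

theorem psC_m32 : PowerSeries.C (-3 / 2 : ℚ) = -(12 * PowerSeries.C (1 / 8)) := by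
  have : (12 : PS) = PowerSeries.C 12 := (map_ofNat PowerSeries.C 12).symm
  rw [this, ← map_mul, ← map_neg]; norm_num

theorem psC_mhalf : PowerSeries.C (-1 / 2 : ℚ) = -(4 * PowerSeries.C (1 / 8)) := by
  have : (4 : PS) = PowerSeries.C 4 := (map_ofNat PowerSeries.C 4).symm
  rw [this, ← map_mul, ← map_neg]; norm_num

theorem pC_m32 : C (-3 / 2 : ℚ) = -(3 * C (1 / 2)) := by
  have : (3 : ℚ[X]) = C 3 := (map_ofNat C 3).symm
  rw [this, ← map_mul, ← map_neg]; norm_num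

theorem pC_mhalf : C (-1 / 2 : ℚ) = -C (1 / 2) := by
  rw [← map_neg]; norm_num

theorem pC_neg_one : C (-1 : ℚ) = -1 := by rw [map_neg, map_one]

section

variable {d : ℕ} {Q : Fin 8 → ℚ[X]} (h : ∀ j, (Q j).natDegree ≤ d)

include h

theorem rv_N0 : rv (d + 2) (NTt Q 0) = (1 - tt ^ 2) * ((d : PS) * rv d (Q 0) - T.th (rv d (Q 0)))
    - (1 + tt) * rv d (Q 2) + 2 * PowerSeries.C (1 / 8) * tt * rv d (Q 7) := by
  have e : NTt Q 0 = X * (X + 1) * (X - 1) * derivative (Q 0)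
      + (C 0 + C (-1) * X + C (-1) * X ^ 2) * Q 2 + (C 0 + C (1 / 4) * X + C 0 * X ^ 2) * Q 7 := by
    simp only [NTt, Matrix.cons_val, map_zero, pC_neg_one]
    ring
  rw [e, rv_add, rv_add, rv_der (h 0), rv_quad_mul _ _ _ (h 2), rv_quad_mul _ _ _ (h 7),
    psC_neg_one, map_zero, quart_eq]
  ring

theorem rv_N1 : rv (d + 2) (NTt Q 1) = (1 - tt ^ 2) * ((d : PS) * rv d (Q 1) - T.th (rv d (Q 1)))
    + 4 * PowerSeries.C (1 / 8) * (1 - 3 * tt) * rv d (Q 4)
    - 4 * PowerSeries.C (1 / 8) * (1 + tt) * rv d (Q 5) := by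
  have e : NTt Q 1 = X * (X + 1) * (X - 1) * derivative (Q 1)
      + (C 0 + C (-3 / 2) * X + C (1 / 2) * X ^ 2) * Q 4
      + (C 0 + C (-1 / 2) * X + C (-1 / 2) * X ^ 2) * Q 5 := by
    simp only [NTt, Matrix.cons_val, map_zero, pC_m32, pC_mhalf]
    ring
  rw [e, rv_add, rv_add, rv_der (h 1), rv_quad_mul _ _ _ (h 4), rv_quad_mul _ _ _ (h 5),
    psC_m32, psC_mhalf, map_zero, half_eq]
  ring

theorem rv_N2 : rv (d + 2) (NTt Q 2) = (1 - tt ^ 2) * ((d : PS) * rv d (Q 2) - T.th (rv d (Q 2)))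
    + (1 - tt ^ 2) * rv d (Q 3) + (1 - tt) * rv d (Q 4) - (1 + tt) * rv d (Q 5) := by
  have e : NTt Q 2 = X * (X + 1) * (X - 1) * derivative (Q 2)
      + (C (-1) + C 0 * X + C 1 * X ^ 2) * Q 3
      + (C 0 + C (-1) * X + C 1 * X ^ 2) * Q 4
      + (C 0 + C (-1) * X + C (-1) * X ^ 2) * Q 5 := by
    simp only [NTt, Matrix.cons_val, map_zero, pC_neg_one, map_one]
    ring
  rw [e, rv_add, rv_add, rv_add, rv_der (h 2), rv_quad_mul _ _ _ (h 3), rv_quad_mul _ _ _ (h 4),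
    rv_quad_mul _ _ _ (h 5), psC_neg_one, map_zero, map_one]
  ring

theorem rv_N3 : rv (d + 2) (NTt Q 3)
    = (1 - tt ^ 2) * ((d : PS) * rv d (Q 3) - T.th (rv d (Q 3))) := by
  rw [← rv_der (h 3)]
  simp only [NTt, Matrix.cons_val, add_zero]

theorem rv_N4 : rv (d + 2) (NTt Q 4)
    = (1 - tt ^ 2) * ((d : PS) * rv d (Q 4) - T.th (rv d (Q 4))) := by
  rw [← rv_der (h 4)]
  simp only [NTt, Matrix.cons_val, add_zero]

theorem rv_N5 : rv (d + 2) (NTt Q 5)
    = (1 - tt ^ 2) * ((d : PS) * rv d (Q 5) - T.th (rv d (Q 5))) := by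
  rw [← rv_der (h 5)]
  simp only [NTt, Matrix.cons_val, add_zero]

theorem rv_N6 : rv (d + 2) (NTt Q 6) = (1 - tt ^ 2) * ((d : PS) * rv d (Q 6) - T.th (rv d (Q 6)))
    + (1 + tt) * rv d (Q 6) - rv d (Q 7) := by
  have e : NTt Q 6 = X * (X + 1) * (X - 1) * derivative (Q 6)
      + (C 0 + C 1 * X + C 1 * X ^ 2) * Q 6
      + (C 0 + C 0 * X + C (-1) * X ^ 2) * Q 7 := by
    simp only [NTt, Matrix.cons_val, map_zero, pC_neg_one, map_one]
    ring
  rw [e, rv_add, rv_add, rv_der (h 6), rv_quad_mul _ _ _ (h 6), rv_quad_mul _ _ _ (h 7),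
    psC_neg_one, map_zero, map_one]
  ring

theorem rv_N7 : rv (d + 2) (NTt Q 7) = (1 - tt ^ 2) * ((d : PS) * rv d (Q 7) - T.th (rv d (Q 7)))
    + (1 - tt ^ 2) * rv d (Q 6) + (tt - 1) * rv d (Q 7) := by
  have e : NTt Q 7 = X * (X + 1) * (X - 1) * derivative (Q 7)
      + (C (-1) + C 0 * X + C 1 * X ^ 2) * Q 6
      + (C 0 + C 1 * X + C (-1) * X ^ 2) * Q 7 := by
    simp only [NTt, Matrix.cons_val, map_zero, pC_neg_one, map_one]
    ring
  rw [e, rv_add, rv_add, rv_der (h 7), rv_quad_mul _ _ _ (h 6), rv_quad_mul _ _ _ (h 7),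
    psC_neg_one, map_zero, map_one]
  ring

theorem ev_NTt2 {Φ Ψ : Fin 8 → PS} (hf : Fl2 Φ Ψ) :
    ev2 (d + 2) (NTt Q) Φ
      = (1 - tt ^ 2) * ((d : PS) * ev2 d Q Φ - T.th (ev2 d Q Φ) - ev2 d Q Ψ) := by
  obtain ⟨e0, e1, e2, e3, e4, e5, e6, e7⟩ := hf
  rw [half_eq] at e4 e5
  rw [quart_eq] at e7
  have hth : ∀ (f : Fin 8 → PS), T.th (∑ j, f j) = ∑ j, T.th (f j) := by
    intro f
    simp only [Fin.sum_univ_eight, th_add]
  simp only [ev2]
  rw [hth]
  simp only [th_mul, Fin.sum_univ_eight, rv_N0 h, rv_N1 h, rv_N2 h, rv_N3 h, rv_N4 h, rv_N5 h,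
    rv_N6 h, rv_N7 h]
  linear_combination (1 - tt ^ 2) * (rv d (Q 0) * e0 + rv d (Q 1) * e1)
    + (1 + tt) * rv d (Q 2) * e2 + (1 - tt ^ 2) * rv d (Q 3) * e3 + rv d (Q 4) * e4
    + (1 + tt) * rv d (Q 5) * e5 + (1 + tt) * rv d (Q 6) * e6 + rv d (Q 7) * e7
    + (1 - tt) * rv d (Q 4) * Φ 1 * eighth

theorem natDegree_NTt (j : Fin 8) : (NTt Q j).natDegree ≤ d + 2 := by
  have h0 : (X * (X + 1) * (X - 1) * derivative (Q j)).natDegree ≤ d + 2 := by
    rcases Nat.eq_zero_or_pos (Q j).natDegree with h1 | h1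
    · rw [Polynomial.derivative_of_natDegree_zero h1, mul_zero]
      simp
    · have h2 := Polynomial.natDegree_derivative_lt h1.ne'
      have h3 := h j
      have h4 : (X * (X + 1) * (X - 1) : ℚ[X]).natDegree ≤ 3 := by compute_degree
      refine (Polynomial.natDegree_mul_le).trans ?_
      omega
  have hq : ∀ (a b c : ℚ) (k : Fin 8),
      ((C a + C b * X + C c * X ^ 2) * Q k).natDegree ≤ d + 2 := by
    intro a b c k
    refine (Polynomial.natDegree_mul_le).trans ?_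
    have := natDegree_quad a b c
    have := h k
    omega
  simp only [NTt]
  refine (Polynomial.natDegree_add_le _ _).trans (max_le h0 ?_)
  fin_cases j
  · have := (Polynomial.natDegree_add_le _ _).trans (max_le (hq 0 (-1) (-1) 2) (hq 0 (1 / 4) 0 7))
    simp only [map_zero, pC_neg_one] at this
    refine le_trans (le_of_eq (congrArg _ ?_)) this
    simp only [Matrix.cons_val, Fin.zero_eta]
    ring
  · have := (Polynomial.natDegree_add_le _ _).trans
      (max_le (hq 0 (-3 / 2) (1 / 2) 4) (hq 0 (-1 / 2) (-1 / 2) 5))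
    simp only [map_zero, pC_m32, pC_mhalf] at this
    refine le_trans (le_of_eq (congrArg _ ?_)) this
    simp only [Matrix.cons_val, Fin.mk_one]
    ring
  · have := (Polynomial.natDegree_add_le _ _).trans
      (max_le ((Polynomial.natDegree_add_le _ _).trans (max_le (hq (-1) 0 1 3) (hq 0 (-1) 1 4)))
        (hq 0 (-1) (-1) 5))
    simp only [map_zero, map_one, pC_neg_one] at this
    refine le_trans (le_of_eq (congrArg _ ?_)) this
    simp only [Matrix.cons_val, Fin.reduceFinMk]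
    ring
  · simp
  · simp
  · simp
  · have := (Polynomial.natDegree_add_le _ _).trans (max_le (hq 0 1 1 6) (hq 0 0 (-1) 7))
    simp only [map_zero, map_one, pC_neg_one] at this
    refine le_trans (le_of_eq (congrArg _ ?_)) this
    simp only [Matrix.cons_val, Fin.reduceFinMk]
    ring
  · have := (Polynomial.natDegree_add_le _ _).trans (max_le (hq (-1) 0 1 6) (hq 0 1 (-1) 7))
    simp only [map_zero, map_one, pC_neg_one] at this
    refine le_trans (le_of_eq (congrArg _ ?_)) this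
    simp only [Matrix.cons_val, Fin.reduceFinMk]
    ring

end

end Vale.Agent.P030.H782
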