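import Vale.Agent.P030.T.Defs

/-!
# P030, NV: identities between the elementary series of `T/Defs`
-/

open PowerSeries

namespace Vale.Agent.P030.H782

open Vale.Agent.P030.T

theorem dd_eq (f : ℚ⟦X⟧) : dd f = d⁄dX ℚ f := by
  ext n
  simp [dd, PowerSeries.coeff_derivative, mul_comm]

theorem th_eq (f : ℚ⟦X⟧) : th f = X * d⁄dX ℚ f := by
  ext n
  cases n with
  | zero => simp [th]
  | succ n =>
    rw [PowerSeries.coeff_succ_X_mul]
    simp [th, PowerSeries.coeff_derivative, mul_comm]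

theorem dd_mul (f g : ℚ⟦X⟧) : dd (f * g) = dd f * g + f * dd g := by
  rw [dd_eq, dd_eq, dd_eq, Derivation.leibniz]
  simp [smul_eq_mul]; ring

theorem dd_add (f g : ℚ⟦X⟧) : dd (f + g) = dd f + dd g := by
  rw [dd_eq, dd_eq, dd_eq, map_add]

theorem dd_sub (f g : ℚ⟦X⟧) : dd (f - g) = dd f - dd g := by
  rw [dd_eq, dd_eq, dd_eq, map_sub]

theorem dd_neg (f : ℚ⟦X⟧) : dd (-f) = -dd f := by
  rw [dd_eq, dd_eq, map_neg]

theorem dd_C (a : ℚ) : dd (C a) = 0 := by
  ext n; simp [dd, PowerSeries.coeff_C]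

theorem dd_one : dd (1 : ℚ⟦X⟧) = 0 := by
  ext n; simp [dd, PowerSeries.coeff_one]

theorem dd_zero : dd (0 : ℚ⟦X⟧) = 0 := by
  ext n; simp [dd]

theorem dd_X : dd (X : ℚ⟦X⟧) = 1 := by
  ext n
  cases n with
  | zero => simp [dd]
  | succ n => simp [dd, PowerSeries.coeff_X, PowerSeries.coeff_one]

theorem th_dd (f : ℚ⟦X⟧) : th f = X * dd f := by rw [th_eq, dd_eq]

theorem th_mul (f g : ℚ⟦X⟧) : th (f * g) = th f * g + f * th g := by
  rw [th_dd, th_dd, th_dd, dd_mul]; ring

theorem th_add (f g : ℚ⟦X⟧) : th (f + g) = th f + th g := by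
  rw [th_dd, th_dd, th_dd, dd_add]; ring

theorem th_sub (f g : ℚ⟦X⟧) : th (f - g) = th f - th g := by
  rw [th_dd, th_dd, th_dd, dd_sub]; ring

theorem th_neg (f : ℚ⟦X⟧) : th (-f) = -th f := by
  rw [th_dd, th_dd, dd_neg]; ring

theorem th_C (a : ℚ) : th (C a) = 0 := by rw [th_dd, dd_C, mul_zero]
theorem th_one : th (1 : ℚ⟦X⟧) = 0 := by rw [th_dd, dd_one, mul_zero]
theorem th_zero : th (0 : ℚ⟦X⟧) = 0 := by rw [th_dd, dd_zero, mul_zero]
theorem th_X : th (X : ℚ⟦X⟧) = X := by rw [th_dd, dd_X, mul_one]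

theorem sc_eq (q : ℚ) (f : ℚ⟦X⟧) : sc q f = C q * f := rfl

/-! ### the elementary series -/

theorem geo_mul : (1 - X) * geo = (1 : ℚ⟦X⟧) := by
  ext n
  cases n with
  | zero => simp [geo, sub_mul]
  | succ n =>
    rw [sub_mul, one_mul, map_sub, PowerSeries.coeff_succ_X_mul]
    simp [geo, PowerSeries.coeff_one]

theorem geoa_mul : (1 + X) * geoa = (1 : ℚ⟦X⟧) := by
  ext n
  cases n with
  | zero => simp [geoa, add_mul]
  | succ n =>
    rw [add_mul, one_mul, map_add, PowerSeries.coeff_succ_X_mul]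
    simp [geoa, PowerSeries.coeff_one, pow_succ]

theorem geo2_mul : (1 - X ^ 2) * geo2 = (1 : ℚ⟦X⟧) := by
  ext n
  rw [sub_mul, one_mul, map_sub]
  match n with
  | 0 => simp [geo2, PowerSeries.coeff_X_pow_mul']
  | 1 => simp [geo2, PowerSeries.coeff_X_pow_mul', PowerSeries.coeff_one]
  | n + 2 =>
    rw [PowerSeries.coeff_X_pow_mul]
    simp [geo2, PowerSeries.coeff_one, Nat.even_add]

theorem th_integ (f : ℚ⟦X⟧) : th (integ f) = X * f := by
  ext n
  cases n with
  | zero => simp [th]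
  | succ n =>
    rw [PowerSeries.coeff_succ_X_mul]
    have : ((n : ℚ) + 1) ≠ 0 := by positivity
    simp [th, integ]
    field_simp

theorem th_lgm : th lgm = X * geo := by
  ext n
  cases n with
  | zero => simp [th]
  | succ n =>
    rw [PowerSeries.coeff_succ_X_mul]
    have : ((n : ℚ) + 1) ≠ 0 := by positivity
    simp [th, lgm, geo]
    field_simp

theorem th_lgp : th lgp = X * geoa := by
  ext n
  cases n with
  | zero => simp [th]
  | succ n =>
    rw [PowerSeries.coeff_succ_X_mul]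
    have : ((n : ℚ) + 1) ≠ 0 := by positivity
    simp [th, lgp, geoa, pow_succ]
    field_simp

theorem th_li2 : th li2 = lgm := by
  ext n
  cases n with
  | zero => simp [th, lgm]
  | succ n =>
    have : ((n : ℚ) + 1) ≠ 0 := by positivity
    simp [th, li2, lgm]
    field_simp

theorem lgm_geo : (1 - X) * th lgm = X := by
  rw [th_lgm]; linear_combination X * geo_mul

theorem lgp_geo : (1 + X) * th lgp = X := by
  rw [th_lgp]; linear_combination X * geoa_mul

/-! ### the K-equation -/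

theorem coeffK_rec (n : ℕ) :
    ((n : ℚ) + 2) ^ 2 * coeff (n + 2) serK = ((n : ℚ) + 1) ^ 2 * coeff n serK := by
  simp only [serK, coeff_mk]
  by_cases h : Even n
  · obtain ⟨m, hm⟩ := h
    have hn : n = 2 * m := by omega
    subst hn
    have h1 : Even (2 * m + 2) := ⟨m + 1, by ring⟩
    have h2 : Even (2 * m) := ⟨m, by ring⟩
    rw [if_pos h1, if_pos h2]
    have e1 : (2 * m + 2) / 2 = m + 1 := by omega
    have e2 : 2 * m / 2 = m := by omega
    rw [e1, e2]
    have hc : ((m : ℚ) + 1) * (Nat.centralBinom (m + 1) : ℚ)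
        = 2 * (2 * (m : ℚ) + 1) * (Nat.centralBinom m : ℚ) := by
      exact_mod_cast Nat.succ_mul_centralBinom_succ m
    have hc2 : (((m : ℚ) + 1) * (Nat.centralBinom (m + 1) : ℚ)) ^ 2
        = (2 * (2 * (m : ℚ) + 1) * (Nat.centralBinom m : ℚ)) ^ 2 := by rw [hc]
    push_cast
    rw [pow_add]
    field_simp
    linear_combination 4 * hc2
  · have h1 : ¬ Even (n + 2) := fun h2 => h (by
      obtain ⟨m, hm⟩ := h2
      exact ⟨m - 1, by omega⟩)
    rw [if_neg h1, if_neg h]; simp

theorem coeff_th (f : ℚ⟦X⟧) (n : ℕ) : coeff n (th f) = (n : ℚ) * coeff n f := by simp [th]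

theorem coeff_two (f : ℚ⟦X⟧) (n : ℕ) : coeff n (2 * f) = 2 * coeff n f := by
  rw [two_mul, map_add, ← two_mul]

/-- `θ² K = X² (θ+1)² K` -/
theorem K_ode : th (th serK) = X ^ 2 * (th (th serK) + 2 * th serK + serK) := by
  ext n
  match n with
  | 0 => simp [coeff_th, PowerSeries.coeff_X_pow_mul']
  | 1 =>
    simp [coeff_th, PowerSeries.coeff_X_pow_mul', serK]
  | n + 2 =>
    rw [PowerSeries.coeff_X_pow_mul]
    have := coeffK_rec n
    simp only [map_add, coeff_two, coeff_th] at this ⊢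
    push_cast
    linear_combination this

theorem coeffB_rec (n : ℕ) :
    ((n : ℚ) + 2) ^ 2 * coeff (n + 2) serB = ((n : ℚ) + 1) ^ 2 * coeff n serB - 1 / 4 := by
  simp only [serB, coeff_mk, cB]
  have : ((n : ℚ) + 2) ≠ 0 := by positivity
  field_simp

/-- `θ² B = X² (θ+1)² B - (1/4) X/(1-X)` -/
theorem B_ode : th (th serB) = X ^ 2 * (th (th serB) + 2 * th serB + serB)
    - C (1 / 4) * (X * geo) := by
  ext n
  match n with
  | 0 => simp [coeff_th, PowerSeries.coeff_X_pow_mul']
  | 1 =>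
    have h : coeff 1 (X * geo : ℚ⟦X⟧) = 1 := by
      rw [show (1 : ℕ) = 0 + 1 from rfl, PowerSeries.coeff_succ_X_mul]; simp [geo]
    simp only [map_sub, coeff_th, PowerSeries.coeff_X_pow_mul', PowerSeries.coeff_C_mul, h]
    simp [serB, cB]
    norm_num
  | n + 2 =>
    have h : coeff (n + 2) (X * geo : ℚ⟦X⟧) = 1 := by
      rw [show (n + 2 : ℕ) = (n + 1) + 1 from rfl, PowerSeries.coeff_succ_X_mul]; simp [geo]
    rw [map_sub, PowerSeries.coeff_X_pow_mul, PowerSeries.coeff_C_mul, h]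
    have := coeffB_rec n
    simp only [map_add, coeff_two, coeff_th] at this ⊢
    push_cast
    linear_combination this

/-- `θ² B2 = X² (θ+1)² B2 - X/4` -/
theorem B2_ode : th (th serB2) = X ^ 2 * (th (th serB2) + 2 * th serB2 + serB2)
    - C (1 / 4) * X := by
  ext n
  match n with
  | 0 => simp [coeff_th, PowerSeries.coeff_X_pow_mul']
  | 1 =>
    simp only [map_sub, coeff_th, PowerSeries.coeff_X_pow_mul', PowerSeries.coeff_C_mul,
      PowerSeries.coeff_X]
    simp [serB2, cB2]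
    norm_num
  | n + 2 =>
    have h : coeff (n + 2) (X : ℚ⟦X⟧) = 0 := by
      rw [PowerSeries.coeff_X, if_neg (by omega)]
    rw [map_sub, PowerSeries.coeff_X_pow_mul, PowerSeries.coeff_C_mul, h]
    have h2 : ((n : ℚ) + 2) ≠ 0 := by positivity
    have : ((n : ℚ) + 2) ^ 2 * coeff (n + 2) serB2 = ((n : ℚ) + 1) ^ 2 * coeff n serB2 := by
      simp only [serB2, coeff_mk, cB2]
      field_simp
    simp only [map_add, coeff_two, coeff_th] at this ⊢
    push_cast
    linear_combination this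

/-- `θ² M = X² (θ+1)² M - 2 θ K + 2 X² (θ+1) K` -/
theorem M_ode : th (th serM) = X ^ 2 * (th (th serM) + 2 * th serM + serM)
    - 2 * th serK + 2 * (X ^ 2 * (th serK + serK)) := by
  ext n
  match n with
  | 0 =>
    simp only [map_sub, map_add, coeff_th, coeff_two, PowerSeries.coeff_X_pow_mul']
    simp
  | 1 =>
    simp only [map_sub, map_add, coeff_th, coeff_two, PowerSeries.coeff_X_pow_mul']
    simp [serM, serK, cMs]
  | n + 2 =>
    simp only [map_sub, map_add, coeff_two, coeff_th, PowerSeries.coeff_X_pow_mul]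
    have hK := coeffK_rec n
    by_cases h : Even n
    · obtain ⟨m, hm⟩ := h
      have hn : n = 2 * m := by omega
      subst hn
      have e1 : cMs (2 * m + 2) = cMs (2 * m) + (2 / (2 * (m : ℚ) + 1) - 2 / (2 * (m : ℚ) + 2)) := by
        simp only [cMs]
        rw [show (2 * m + 2) / 2 = m + 1 by omega, show 2 * m / 2 = m by omega,
          Finset.sum_range_succ]
      simp only [serM, coeff_mk]
      rw [e1]
      push_cast at hK ⊢
      have h1 : (2 * (m : ℚ) + 1) ≠ 0 := by positivity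
      have h2 : (2 * (m : ℚ) + 2) ≠ 0 := by positivity
      have hK2 : coeff (2 * m + 2) serK
          = (2 * (m : ℚ) + 1) ^ 2 * coeff (2 * m) serK / (2 * (m : ℚ) + 2) ^ 2 := by
        rw [eq_div_iff (pow_ne_zero _ h2)]; linear_combination hK
      rw [hK2]
      field_simp
      ring
    · have h1 : ¬ Even (n + 2) := fun h2 => h (by
        obtain ⟨m, hm⟩ := h2
        exact ⟨m - 1, by omega⟩)
      have k1 : coeff (n + 2) serK = 0 := by simp only [serK, coeff_mk]; rw [if_neg h1]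
      have k2 : coeff n serK = 0 := by simp only [serK, coeff_mk]; rw [if_neg h]
      simp [serM, k1, k2]

end Vale.Agent.P030.H782
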